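import Crest.Agent.R254.Hilbert

/-! The abstract non-embedding argument for row 254: one step of the inner (horizontal) loop. -/

set_option autoImplicit false

namespace Crest.Agent.R254

open Finset

/-- `x` lies in a cell of index `i` of the periodic pattern with cell length `b` and `N` indices. -/
def cell (b : ℝ) (N i : ℕ) (x : ℝ) : Prop :=
  ∃ m : ℕ, ((2 * N * m + 2 * i : ℕ) : ℝ) * b ≤ x ∧ x ≤ ((2 * N * m + 2 * i + 1 : ℕ) : ℝ) * b

/-- The data of a bi-Lipschitz map on a layered set. -/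
structure Setup (B H : Type*) [NormedAddCommGroup B] [NormedAddCommGroup H] where
  Ok : ℕ → ℝ → ℝ → B → Prop
  G : ℝ → ℝ → B → H
  w : ℕ → B
  M : ℝ
  q : ℕ
  one_le_M : 1 ≤ M
  one_le_q : 1 ≤ q
  mono : ∀ {d d' : ℕ} {t x : ℝ} {z : B}, d ≤ d' → Ok d t x z → Ok d' t x z
  up : ∀ {d d' : ℕ} {t x : ℝ} {z : B} {t' x' : ℝ} {z' : B}, Ok d t x z → Ok d' t' x' z' →
    ‖G t x z - G t' x' z'‖ ≤ M * (2 * |t - t'| + 2 * |x - x'| + ‖z - z'‖)
  low : ∀ {d d' : ℕ} {t x : ℝ} {z z' : B}, Ok d t x z → Ok d' t x z' →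
    ‖z - z'‖ ≤ ‖G t x z - G t x z'‖
  w_le : ∀ i, ‖w i‖ ≤ 2
  w_sep : ∀ i j, i ≠ j → 1 ≤ ‖w i - w j‖

variable {B H : Type*} [NormedAddCommGroup B] [NormedSpace ℝ B]
  [NormedAddCommGroup H] [InnerProductSpace ℝ H]

/-- Level `d` has offset size `a`, horizontal cells `q a`, time cells `c`, and `N` indices. -/
def Setup.Ext (S : Setup B H) (d N : ℕ) (a c : ℝ) : Prop :=
  ∀ t x z i, i < N → S.Ok d t x z → (cell (S.q * a) N i x ∨ cell c N i t) →
    S.Ok (d + 1) t x (z + a • S.w i)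

/-- The offset `z` is admissible on a whole rectangle. -/
def Setup.Room (S : Setup B H) (d : ℕ) (t0 t1 x0 x1 : ℝ) (z : B) : Prop :=
  ∀ t x, t0 ≤ t → t ≤ t1 → x0 ≤ x → x ≤ x1 → S.Ok d t x z

/-- Packing property of the target. -/
def Pack (H : Type*) [NormedAddCommGroup H] (N : ℕ) (M : ℝ) : Prop :=
  ∀ v : ℕ → H, (∀ i < N, ‖v i‖ ≤ 2 * M) → ∃ i < N, ∃ j < N, i ≠ j ∧ ‖v i - v j‖ ≤ 1 / 4

lemma Pack.scale {N : ℕ} {M : ℝ} (hp : Pack H N M) {a : ℝ} (ha : 0 < a) (v : ℕ → H)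
    (hv : ∀ i < N, ‖v i‖ ≤ 2 * M * a) : ∃ i < N, ∃ j < N, i ≠ j ∧ ‖v i - v j‖ ≤ a / 4 := by
  obtain ⟨i, hi, j, hj, hij, h⟩ := hp (fun i => a⁻¹ • v i) (fun i hi => by
    rw [norm_smul, norm_inv, Real.norm_of_nonneg ha.le, inv_mul_le_iff₀ ha]
    linarith [hv i hi])
  refine ⟨i, hi, j, hj, hij, ?_⟩
  rw [← smul_sub, norm_smul, norm_inv, Real.norm_of_nonneg ha.le, inv_mul_le_iff₀ ha] at h
  linarith

lemma Setup.up_same (S : Setup B H) {d d' : ℕ} {t x : ℝ} {z : B} {a : ℝ} (ha : 0 ≤ a) (i : ℕ)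
    (h1 : S.Ok d t x (z + a • S.w i)) (h2 : S.Ok d' t x z) :
    ‖S.G t x (z + a • S.w i) - S.G t x z‖ ≤ 2 * S.M * a := by
  have := S.up h1 h2
  simp only [sub_self, abs_zero, mul_zero, zero_add, add_sub_cancel_left] at this
  rw [norm_smul, Real.norm_of_nonneg ha] at this
  have h3 := S.w_le i
  have h4 := S.one_le_M
  calc _ ≤ S.M * (a * ‖S.w i‖) := this
    _ ≤ S.M * (a * 2) := by gcongr
    _ = _ := by ring

/-- One edge: after a rigid period has been selected, the slope of the edge is smaller than the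
slopes of its children. -/
lemma Setup.edge_step (S : Setup B H) (N R0 : ℕ) (hN : 0 < N) (hR0 : 0 < R0) (hp : Pack H N S.M)
    (a b h : ℝ) (ha : 0 < a) (hb : 0 < b) (V : H) (z : B) (X0 p U D : ℕ) (Sl : ℝ)
    (rig0 : ∀ r ≤ N * R0, ∀ i < N, ∀ m : ℕ, p ≤ m → m ≤ p + U →
      ‖(S.G (m * h) (((X0 + r * (2 * N) + 2 * i : ℕ) : ℝ) * b) z - (m : ℝ) • V) -
        (S.G (p * h) (((X0 + r * (2 * N) + 2 * i : ℕ) : ℝ) * b) z - (p : ℝ) • V)‖ ≤ a / 16)
    (rig1 : ∀ r ≤ N * R0, ∀ i < N, ∀ m : ℕ, p ≤ m → m ≤ p + U →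
      ‖(S.G (m * h) (((X0 + r * (2 * N) + 2 * i : ℕ) : ℝ) * b) (z + a • S.w i) - (m : ℝ) • V) -
        (S.G (p * h) (((X0 + r * (2 * N) + 2 * i : ℕ) : ℝ) * b) (z + a • S.w i)
          - (p : ℝ) • V)‖ ≤ a / 16)
    (ok0 : ∀ m : ℕ, p ≤ m → m ≤ p + U → ∀ j ≤ N * R0 * (2 * N),
      S.Ok D (m * h) (((X0 + j : ℕ) : ℝ) * b) z)
    (ok1 : ∀ m : ℕ, p ≤ m → m ≤ p + U → ∀ r < N * R0, ∀ i < N,
      S.Ok D (m * h) (((X0 + r * (2 * N) + 2 * i : ℕ) : ℝ) * b) (z + a • S.w i))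
    (IH : ∀ i < N, ∃ m : ℕ, p ≤ m ∧ m ≤ p + U ∧
      (∀ j ≤ N * R0 * (2 * N), S.Ok D (m * h) (((X0 + j : ℕ) : ℝ) * b) (z + a • S.w i)) ∧
      ∀ j < N * R0 * (2 * N),
        ‖S.G (m * h) (((X0 + (j + 1) : ℕ) : ℝ) * b) z - S.G (m * h) (((X0 + j : ℕ) : ℝ) * b) z‖ ^ 2
          ≤ Sl ∧
        ‖S.G (m * h) (((X0 + (j + 1) : ℕ) : ℝ) * b) (z + a • S.w i) -
          S.G (m * h) (((X0 + j : ℕ) : ℝ) * b) (z + a • S.w i)‖ ^ 2 ≤ Sl) :
    ‖S.G (p * h) (((X0 + N * R0 * (2 * N) : ℕ) : ℝ) * b) z - S.G (p * h) ((X0 : ℝ) * b) z‖ ^ 2 ≤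
      ((N * R0 * (2 * N) : ℕ) : ℝ) ^ 2 * Sl + 9 * S.M ^ 2 * a * (((N * R0 * (2 * N) : ℕ) : ℝ) * b)
        - (N * R0 : ℕ) * R0 * a ^ 2 / 16 := by
  classical
  set R := N * R0 with hR
  have hRpos : 0 < R := Nat.mul_pos hN hR0
  have hM := S.one_le_M
  -- displacement vectors
  set β : ℕ → ℕ → ℕ → H := fun m r i =>
    S.G (m * h) (((X0 + r * (2 * N) + 2 * i : ℕ) : ℝ) * b) (z + a • S.w i) -
      S.G (m * h) (((X0 + r * (2 * N) + 2 * i : ℕ) : ℝ) * b) z with hβ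
  have hpos : ∀ r < R, ∀ i < N, r * (2 * N) + 2 * i ≤ R * (2 * N) := by
    intro r hr i hi
    have : (r + 1) * (2 * N) ≤ R * (2 * N) := Nat.mul_le_mul_right _ hr
    nlinarith
  have hβle : ∀ r < R, ∀ i < N, ‖β p r i‖ ≤ 2 * S.M * a := by
    intro r hr i hi
    refine S.up_same ha.le i (ok1 p le_rfl (Nat.le_add_right _ _) r hr i hi) (d' := D) ?_
    have := ok0 p le_rfl (Nat.le_add_right _ _) _ (hpos r hr i hi)
    rwa [← add_assoc] at this
  have hβrig : ∀ m, p ≤ m → m ≤ p + U → ∀ r < R, ∀ i < N, ‖β m r i - β p r i‖ ≤ a / 8 := by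
    intro m h1 h2 r hr i hi
    have e0 := rig0 r hr.le i hi m h1 h2
    have e1 := rig1 r hr.le i hi m h1 h2
    have := norm_sub_le_of_le e1 e0
    refine le_trans (le_of_eq ?_) (this.trans (by linarith))
    congr 1
    simp only [hβ]
    abel
  have hch : ∀ r : ℕ, ∃ i < N, r < R → ∃ j < N, i ≠ j ∧ ‖β p r i - β p r j‖ ≤ a / 4 := by
    intro r
    by_cases hr : r < R
    · obtain ⟨i, hi, j, hj, hij, h⟩ := hp.scale ha (β p r) (hβle r hr)
      exact ⟨i, hi, fun _ => ⟨j, hj, hij, h⟩⟩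
    · exact ⟨0, hN, fun h => absurd h hr⟩
  choose I hI hIJ using hch
  obtain ⟨i, hi, hcard⟩ := exists_le_card_fiber_of_mul_le_card_of_maps_to
    (s := range R) (t := range N) (f := I) (n := R0) (fun r _ => mem_range.mpr (hI r))
    ⟨0, mem_range.mpr hN⟩ (by simp [hR])
  have hi' := mem_range.mp hi
  obtain ⟨m, hm1, hm2, okm, hsl⟩ := IH i hi'
  set g : ℕ → H := fun j => S.G (m * h) (((X0 + j : ℕ) : ℝ) * b) z with hg
  set g' : ℕ → H := fun j => S.G (m * h) (((X0 + j : ℕ) : ℝ) * b) (z + a • S.w i) with hg'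
  have hdle : ∀ j ≤ R * (2 * N), ‖g' j - g j‖ ≤ 2 * S.M * a := fun j hj =>
    S.up_same ha.le i (okm j hj) (ok0 m hm1 hm2 j hj)
  have hlen : ∀ m' : ℕ, p ≤ m' → m' ≤ p + U →
      ‖S.G (m' * h) (((X0 + R * (2 * N) : ℕ) : ℝ) * b) z - S.G (m' * h) (((X0 + 0 : ℕ) : ℝ) * b) z‖ ≤
        2 * S.M * (((R * (2 * N) : ℕ) : ℝ) * b) := by
    intro m' h1 h2
    have := S.up (ok0 m' h1 h2 _ le_rfl) (ok0 m' h1 h2 0 (Nat.zero_le _))
    refine this.trans (le_of_eq ?_)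
    have e : ((X0 + R * (2 * N) : ℕ) : ℝ) * b - ((X0 + 0 : ℕ) : ℝ) * b =
        ((R * (2 * N) : ℕ) : ℝ) * b := by push_cast; ring
    rw [e, abs_of_nonneg (by positivity : (0 : ℝ) ≤ ((R * (2 * N) : ℕ) : ℝ) * b)]
    simp only [sub_self, abs_zero, norm_zero]
    ring
  have hgain := gain g g' (2 * N) R (by omega) hRpos Sl (a / 2) (4 * S.M * a)
    (2 * S.M * (((R * (2 * N) : ℕ) : ℝ) * b)) (by positivity)
    ((range R).filter fun r => I r = i) (filter_subset _ _) (fun j hj => hsl j hj) ?_ ?_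
    (hlen m hm1 hm2)
  rotate_left
  · intro r hr
    obtain ⟨hr1, hr2⟩ := mem_filter.mp hr
    have hr1' := mem_range.mp hr1
    obtain ⟨j, hj, hij, hclose⟩ := hIJ r hr1'
    rw [hr2] at hij hclose
    refine ⟨r * (2 * N) + 2 * j, r * (2 * N) + 2 * i, by omega, by omega, by omega, by omega, ?_⟩
    have e1 : g' (r * (2 * N) + 2 * i) - g (r * (2 * N) + 2 * i) = β m r i := by
      simp only [hg, hg', hβ, add_assoc]
    have e2 : g' (r * (2 * N) + 2 * j) - g (r * (2 * N) + 2 * j) - β m r j =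
        S.G (m * h) (((X0 + r * (2 * N) + 2 * j : ℕ) : ℝ) * b) (z + a • S.w i) -
        S.G (m * h) (((X0 + r * (2 * N) + 2 * j : ℕ) : ℝ) * b) (z + a • S.w j) := by
      simp only [hg, hg', hβ, add_assoc]
      abel
    have e3 : a ≤ ‖g' (r * (2 * N) + 2 * j) - g (r * (2 * N) + 2 * j) - β m r j‖ := by
      rw [e2]
      have o1 := okm _ (hpos r hr1' j hj)
      rw [← add_assoc] at o1
      refine le_trans ?_ (S.low o1 (ok1 m hm1 hm2 r hr1' j hj))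
      have : z + a • S.w i - (z + a • S.w j) = a • (S.w i - S.w j) := by
        rw [smul_sub]; abel
      rw [this, norm_smul, Real.norm_of_nonneg ha.le]
      nlinarith [S.w_sep i j hij]
    rw [e1]
    set u := g' (r * (2 * N) + 2 * j) - g (r * (2 * N) + 2 * j)
    have t1 := hβrig m hm1 hm2 r hr1' i hi'
    have t2 := hβrig m hm1 hm2 r hr1' j hj
    have e4 : u - β m r j = (u - β m r i) + ((β m r i - β p r i) + ((β p r i - β p r j)
        - (β m r j - β p r j))) := by abel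
    have t3 := norm_add_le (u - β m r i) ((β m r i - β p r i) + ((β p r i - β p r j)
        - (β m r j - β p r j)))
    have t4 := norm_add_le (β m r i - β p r i) ((β p r i - β p r j) - (β m r j - β p r j))
    have t5 := norm_sub_le (β p r i - β p r j) (β m r j - β p r j)
    rw [e4] at e3
    linarith
  · have := norm_sub_le_of_le (hdle _ le_rfl) (hdle 0 (Nat.zero_le _))
    linarith
  -- transport from time `m` to time `p`
  have r1 := rig0 R le_rfl 0 hN m hm1 hm2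
  have r0 := rig0 0 (Nat.zero_le _) 0 hN m hm1 hm2
  simp only [mul_zero, add_zero, zero_mul] at r1 r0
  have l0 := hlen p le_rfl (Nat.le_add_right _ _)
  have l1 := hlen m hm1 hm2
  simp only [add_zero] at l0 l1
  simp only [hg, add_zero] at hgain
  set G0 := S.G (p * h) (((X0 + R * (2 * N) : ℕ) : ℝ) * b) z - S.G (p * h) ((X0 : ℝ) * b) z with hG0
  set G1 := S.G (m * h) (((X0 + R * (2 * N) : ℕ) : ℝ) * b) z - S.G (m * h) ((X0 : ℝ) * b) z with hG1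
  have hdiff : ‖G1 - G0‖ ≤ a / 8 := by
    have := norm_sub_le_of_le r1 r0
    refine le_trans (le_of_eq ?_) (this.trans (by linarith))
    congr 1
    simp only [hG0, hG1]
    abel
  have hG01 : ‖G0‖ ≤ ‖G1‖ + a / 8 := by
    have := norm_sub_le G1 (G1 - G0)
    rw [sub_sub_cancel] at this
    linarith
  set L := ((R * (2 * N) : ℕ) : ℝ) * b with hL
  have hLpos : 0 ≤ L := by positivity
  have hsq : ‖G0‖ ^ 2 ≤ ‖G1‖ ^ 2 + S.M ^ 2 * a * L := by
    have n0 := norm_nonneg G0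
    have n1 := norm_nonneg G1
    have t1 : (‖G0‖ - ‖G1‖) * (‖G0‖ + ‖G1‖) ≤ (a / 8) * (‖G0‖ + ‖G1‖) :=
      mul_le_mul_of_nonneg_right (by linarith) (by linarith)
    have t2 : (a / 8) * (‖G0‖ + ‖G1‖) ≤ (a / 8) * (4 * S.M * L) :=
      mul_le_mul_of_nonneg_left (by linarith) (by linarith)
    have t3 : S.M * (a * L) ≤ S.M ^ 2 * (a * L) :=
      mul_le_mul_of_nonneg_right (by nlinarith) (by positivity)
    have t4 : 0 ≤ S.M * (a * L) := by positivity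
    nlinarith
  have hc : (R : ℝ) * R0 * (a / 2) ^ 2 / 4 ≤
      R * (((range R).filter fun r => I r = i).card : ℝ) * (a / 2) ^ 2 / 4 := by
    have : (R0 : ℝ) ≤ (((range R).filter fun r => I r = i).card : ℝ) := by exact_mod_cast hcard
    gcongr
  nlinarith [hgain, hsq, hc]

end Crest.Agent.R254
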