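import Crest.Agent.R254.Core
import Crest.Prelude.Def_Doubling

/-! The layered set of row 254 and its doubling property. -/

set_option autoImplicit false
set_option linter.unusedSectionVars false

namespace Crest.Agent.R254

open Finset

variable {B : Type*} [NormedAddCommGroup B] [NormedSpace ℝ B]

/-- Two base directions and a sequence of offsets, separated modulo the base plane. -/
structure Frame (B : Type*) [NormedAddCommGroup B] [NormedSpace ℝ B] where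
  e0 : B
  e1 : B
  w : ℕ → B
  e0_le : ‖e0‖ ≤ 2
  e1_le : ‖e1‖ ≤ 2
  w_le : ∀ i, ‖w i‖ ≤ 2
  e0_ge : 1 ≤ ‖e0‖
  e1_ge : ∀ s : ℝ, 1 ≤ ‖s • e0 + e1‖
  w_ge : ∀ i, ∀ s t : ℝ, 1 ≤ ‖s • e0 + t • e1 + w i‖
  w_sep : ∀ i j, i ≠ j → ∀ s t : ℝ, 1 ≤ ‖s • e0 + t • e1 + (w i - w j)‖

lemma riesz_finset (h : ¬FiniteDimensional ℝ B) (s : Finset B) :
    ∃ x : B, ‖x‖ ≤ 2 ∧ ∀ y ∈ Submodule.span ℝ (s : Set B), 1 ≤ ‖y + x‖ := by
  let F := Submodule.span ℝ (s : Set B)
  have hF : F.FG := ⟨s, rfl⟩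
  have : FiniteDimensional ℝ F := .of_fg hF
  have Fclosed : IsClosed (F : Set B) := Submodule.closed_of_finiteDimensional _
  have : ∃ x, x ∉ F := by
    contrapose! h
    have : (⊤ : Submodule ℝ B) = F := by
      ext x
      simp [h]
    rw [← this] at hF
    exact .of_fg_top hF
  obtain ⟨x, xR, hx⟩ : ∃ x : B, ‖x‖ ≤ 2 ∧ ∀ y : B, y ∈ F → 1 ≤ ‖x - y‖ :=
    riesz_lemma_of_norm_lt (c := (3 / 2 : ℝ)) (by norm_num) (by norm_num) Fclosed this
  refine ⟨x, xR, fun y hy => ?_⟩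
  have := hx (-y) (F.neg_mem hy)
  rwa [sub_neg_eq_add, add_comm] at this

lemma exists_frame (h : ¬FiniteDimensional ℝ B) : Nonempty (Frame B) := by
  classical
  obtain ⟨e0, h0, h0'⟩ := riesz_finset h ∅
  obtain ⟨e1, h1, h1'⟩ := riesz_finset h {e0}
  obtain ⟨w, hw, hw'⟩ := exists_seq_of_forall_finset_exists
    (fun y : B => ‖y‖ ≤ 2 ∧ ∀ s t : ℝ, 1 ≤ ‖s • e0 + t • e1 + y‖)
    (fun x y : B => ∀ s t : ℝ, 1 ≤ ‖s • e0 + t • e1 + (y - x)‖) (by
      intro s _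
      obtain ⟨y, hy, hy'⟩ := riesz_finset h (insert e0 (insert e1 s))
      have m0 : e0 ∈ Submodule.span ℝ ((insert e0 (insert e1 s) : Finset B) : Set B) :=
        Submodule.subset_span (by simp)
      have m1 : e1 ∈ Submodule.span ℝ ((insert e0 (insert e1 s) : Finset B) : Set B) :=
        Submodule.subset_span (by simp)
      refine ⟨y, ⟨hy, fun a b => hy' _ (Submodule.add_mem _ (Submodule.smul_mem _ _ m0)
        (Submodule.smul_mem _ _ m1))⟩, fun x hx a b => ?_⟩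
      have mx : x ∈ Submodule.span ℝ ((insert e0 (insert e1 s) : Finset B) : Set B) :=
        Submodule.subset_span (by simp [hx])
      have := hy' _ (Submodule.sub_mem _ (Submodule.add_mem _ (Submodule.smul_mem _ a m0)
        (Submodule.smul_mem _ b m1)) mx)
      refine this.trans (le_of_eq ?_)
      congr 1; abel)
  refine ⟨⟨e0, e1, w, h0, h1, fun i => (hw i).1, ?_, fun s => ?_, fun i => (hw i).2, ?_⟩⟩
  · simpa using h0' 0 (Submodule.zero_mem _)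
  · exact h1' _ (Submodule.smul_mem _ _ (Submodule.subset_span (by simp)))
  · intro i j hij s t
    rcases lt_or_gt_of_ne hij with h | h
    · have := hw' i j h (-s) (-t)
      rw [← norm_neg] at this
      refine this.trans (le_of_eq ?_)
      congr 1; simp only [neg_smul]; abel
    · exact hw' j i h s t

namespace Frame

variable (F : Frame B)

lemma coord1 (s t : ℝ) : |t| ≤ ‖s • F.e0 + t • F.e1‖ := by
  rcases eq_or_ne t 0 with rfl | ht
  · simp
  · have : s • F.e0 + t • F.e1 = t • ((s / t) • F.e0 + F.e1) := by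
      rw [smul_add, smul_smul, mul_div_cancel₀ _ ht]
    rw [this, norm_smul, Real.norm_eq_abs]
    nlinarith [F.e1_ge (s / t), abs_nonneg t]

lemma coord0 (s t : ℝ) : |s| ≤ 3 * ‖s • F.e0 + t • F.e1‖ := by
  have h1 := F.coord1 s t
  have h2 : ‖s • F.e0‖ ≤ ‖s • F.e0 + t • F.e1‖ + ‖t • F.e1‖ := by
    have := norm_sub_le (s • F.e0 + t • F.e1) (t • F.e1)
    rwa [add_sub_cancel_right] at this
  rw [norm_smul, norm_smul, Real.norm_eq_abs, Real.norm_eq_abs] at h2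
  nlinarith [F.e0_ge, F.e1_le, abs_nonneg s, abs_nonneg t]

lemma norm_plane_le (s t : ℝ) : ‖s • F.e0 + t • F.e1‖ ≤ 2 * |s| + 2 * |t| := by
  refine (norm_add_le _ _).trans ?_
  rw [norm_smul, norm_smul, Real.norm_eq_abs, Real.norm_eq_abs]
  nlinarith [F.e0_le, F.e1_le, abs_nonneg s, abs_nonneg t]

/-- `z` is at distance at least `c` from the base plane. -/
def Far (z : B) (c : ℝ) : Prop := ∀ s t : ℝ, c ≤ ‖s • F.e0 + t • F.e1 + z‖

lemma Far.smul {z : B} (h : F.Far z 1) {a : ℝ} (ha : 0 < a) : F.Far (a • z) a := by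
  intro s t
  have : s • F.e0 + t • F.e1 + a • z = a • ((s / a) • F.e0 + (t / a) • F.e1 + z) := by
    rw [smul_add, smul_add, smul_smul, smul_smul, mul_div_cancel₀ _ ha.ne',
      mul_div_cancel₀ _ ha.ne']
  rw [this, norm_smul, Real.norm_of_nonneg ha.le]
  nlinarith [h (s / a) (t / a)]

lemma Far.neg {z : B} {c : ℝ} (h : F.Far z c) : F.Far (-z) c := by
  intro s t
  have := h (-s) (-t)
  rw [← norm_neg] at this
  refine this.trans (le_of_eq ?_)
  congr 1; simp only [neg_smul]; abel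

/-- A neighbourhood of a translate of the base plane, cut by a ball, is covered by few balls. -/
lemma plane_cover (ζ x₀ : B) (r : ℝ) (hr : 0 < r) :
    ∃ C : Finset B, C.card ≤ 401 * 401 ∧ ∀ p : B, ‖p - x₀‖ ≤ 3 * r →
      (∃ s t : ℝ, ‖p - (s • F.e0 + t • F.e1 + ζ)‖ ≤ r / 10) → ∃ c ∈ C, ‖p - c‖ ≤ r / 2 := by
  classical
  by_cases hne : ∃ p : B, ‖p - x₀‖ ≤ 3 * r ∧ ∃ s t : ℝ, ‖p - (s • F.e0 + t • F.e1 + ζ)‖ ≤ r / 10
  swap
  · exact ⟨∅, by simp, fun p h1 h2 => absurd ⟨p, h1, h2⟩ hne⟩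
  obtain ⟨p0, hp0, s0, t0, hst0⟩ := hne
  obtain ⟨I, hI, hIc⟩ : ∃ I : Finset ℤ, (∀ i, i ∈ I ↔ -200 ≤ i ∧ i ≤ 200) ∧ I.card = 401 :=
    ⟨Finset.Icc (-200 : ℤ) 200, fun i => Finset.mem_Icc, by simp⟩
  refine ⟨(I ×ˢ I).image
    (fun ij => (s0 + ij.1 * (r / 10)) • F.e0 + (t0 + ij.2 * (r / 10)) • F.e1 + ζ), ?_, ?_⟩
  · refine card_image_le.trans ?_
    rw [card_product, hIc]
  · rintro p hp ⟨s, t, hst⟩
    have hd : ‖(s - s0) • F.e0 + (t - t0) • F.e1‖ ≤ 6.2 * r := by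
      have e : (s - s0) • F.e0 + (t - t0) • F.e1 = ((p - x₀) - (p0 - x₀)) +
          ((p0 - (s0 • F.e0 + t0 • F.e1 + ζ)) - (p - (s • F.e0 + t • F.e1 + ζ))) := by
        simp only [sub_smul]; abel
      rw [e]
      have a1 := norm_sub_le_of_le hp hp0
      have a2 := norm_sub_le_of_le hst0 hst
      refine (norm_add_le _ _).trans ?_
      linarith
    have hs := F.coord0 (s - s0) (t - t0)
    have ht := F.coord1 (s - s0) (t - t0)
    have key : ∀ u : ℝ, |u| ≤ 19 * r → ∃ i : ℤ, i ∈ I ∧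
        |u - i * (r / 10)| ≤ r / 10 := by
      intro u hu
      have hr' : 0 < r / 10 := by positivity
      refine ⟨⌊u / (r / 10)⌋, ?_, ?_⟩
      · rw [hI]
        obtain ⟨h1, h2⟩ := abs_le.mp hu
        constructor
        · rw [Int.le_floor, le_div_iff₀ hr']; push_cast; linarith
        · rw [Int.floor_le_iff, div_lt_iff₀ hr']; push_cast; linarith
      · have h1 := Int.floor_le (u / (r / 10))
        have h2 := Int.lt_floor_add_one (u / (r / 10))
        rw [le_div_iff₀ hr'] at h1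
        rw [div_lt_iff₀ hr'] at h2
        rw [abs_le]; constructor <;> linarith
    obtain ⟨i, hi, hi'⟩ := key (s - s0) (by linarith)
    obtain ⟨j, hj, hj'⟩ := key (t - t0) (by linarith)
    have hij : (i, j) ∈ I ×ˢ I :=
      mem_product.mpr ⟨hi, hj⟩
    refine ⟨(s0 + i * (r / 10)) • F.e0 + (t0 + j * (r / 10)) • F.e1 + ζ,
      mem_image_of_mem (fun ij : ℤ × ℤ =>
        (s0 + ij.1 * (r / 10)) • F.e0 + (t0 + ij.2 * (r / 10)) • F.e1 + ζ) hij, ?_⟩
    have e : p - ((s0 + i * (r / 10)) • F.e0 + (t0 + j * (r / 10)) • F.e1 + ζ) =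
        (p - (s • F.e0 + t • F.e1 + ζ)) +
          ((s - s0 - i * (r / 10)) • F.e0 + (t - t0 - j * (r / 10)) • F.e1) := by
      simp only [sub_smul, add_smul]; abel
    rw [e]
    refine (norm_add_le _ _).trans ?_
    have := F.norm_plane_le (s - s0 - i * (r / 10)) (t - t0 - j * (r / 10))
    linarith

end Frame

lemma cell_uniq {b : ℝ} (hb : 0 < b) (N : ℕ) (x₀ δ : ℝ) (hδ : 2 * δ < b) :
    ∃ i₀ : ℕ, ∀ i < N, ∀ x, |x - x₀| ≤ δ → cell b N i x → i = i₀ := by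
  by_cases h : ∃ i < N, ∃ x, |x - x₀| ≤ δ ∧ cell b N i x
  swap
  · exact ⟨0, fun i hi x h1 h2 => absurd ⟨i, hi, x, h1, h2⟩ h⟩
  obtain ⟨i₀, hi₀, y, hy, m₀, hm1, hm2⟩ := h
  refine ⟨i₀, fun i hi x hx ⟨m, h1, h2⟩ => ?_⟩
  obtain ⟨hx1, hx2⟩ := abs_le.mp hx
  obtain ⟨hy1, hy2⟩ := abs_le.mp hy
  have a1 : ((2 * N * m + 2 * i : ℕ) : ℝ) * b < ((2 * N * m₀ + 2 * i₀ + 2 : ℕ) : ℝ) * b := by
    push_cast at *; linarith
  have a2 : ((2 * N * m₀ + 2 * i₀ : ℕ) : ℝ) * b < ((2 * N * m + 2 * i + 2 : ℕ) : ℝ) * b := by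
    push_cast at *; linarith
  have b1 := Nat.cast_lt.mp (lt_of_mul_lt_mul_right a1 hb.le)
  have b2 := Nat.cast_lt.mp (lt_of_mul_lt_mul_right a2 hb.le)
  have e : N * m + i = N * m₀ + i₀ := by
    rw [mul_assoc] at b1 b2
    rw [mul_assoc] at b1 b2
    omega
  have := congrArg (· % N) e
  simp only [Nat.mul_add_mod] at this
  rwa [Nat.mod_eq_of_lt hi, Nat.mod_eq_of_lt hi₀] at this

/-- The global sequence of parameters. -/
structure Scheme where
  ratio : ℕ → ℕ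
  Γ : ℕ → ℕ
  N : ℕ → ℕ
  ratio_ge : ∀ e, 2000 ≤ ratio e
  Γ_ge : ∀ e, 2000 ≤ Γ e

namespace Scheme

variable (P : Scheme) (F : Frame B)

/-- The size of the offsets at level `e`. -/
noncomputable def a (e : ℕ) : ℝ := (∏ i ∈ range (e + 1), (P.ratio i : ℝ))⁻¹

lemma ratio_pos (e : ℕ) : (0 : ℝ) < P.ratio e := by
  have := P.ratio_ge e
  exact_mod_cast (by omega : 0 < P.ratio e)

lemma a_pos (e : ℕ) : 0 < P.a e :=
  inv_pos.mpr (prod_pos fun i _ => P.ratio_pos i)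

lemma a_succ (e : ℕ) : P.a e = P.ratio (e + 1) * P.a (e + 1) := by
  have h1 := P.ratio_pos (e + 1)
  have h2 : 0 < ∏ i ∈ range (e + 1), (P.ratio i : ℝ) := prod_pos fun i _ => P.ratio_pos i
  unfold a
  rw [prod_range_succ _ (e + 1)]
  field_simp

lemma a_zero : P.ratio 0 * P.a 0 = 1 := by
  have h1 := P.ratio_pos 0
  unfold a
  simp only [zero_add, range_one, prod_singleton]
  field_simp

lemma a_succ_le (e : ℕ) : 2000 * P.a (e + 1) ≤ P.a e := by
  rw [P.a_succ e]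
  have : (2000 : ℝ) ≤ P.ratio (e + 1) := by exact_mod_cast P.ratio_ge (e + 1)
  exact mul_le_mul_of_nonneg_right this (P.a_pos _).le

lemma a_le (e : ℕ) : P.a e ≤ (1 / 2) ^ e := by
  induction e with
  | zero =>
    have : (2000 : ℝ) ≤ P.ratio 0 := by exact_mod_cast P.ratio_ge 0
    have h1 := P.a_zero
    have h2 := P.a_pos 0
    simp only [pow_zero]
    nlinarith
  | succ e ih =>
    have := P.a_succ_le e
    have h2 := P.a_pos (e + 1)
    rw [pow_succ]; linarith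

lemma ratio_mul_a_le (e : ℕ) : P.ratio e * P.a e ≤ 1 := by
  cases e with
  | zero => exact P.a_zero.le
  | succ e =>
    rw [← P.a_succ]
    exact (P.a_le e).trans (pow_le_one₀ (by norm_num) (by norm_num))

/-- Admissible offset directions at level `e` and position `(t, x)`. -/
def Adm (e : ℕ) (t x : ℝ) (v : B) : Prop :=
  v = 0 ∨ ∃ i < P.N e, (cell (2000 * P.a e) (P.N e) i x ∨ cell (P.Γ e * P.a e) (P.N e) i t) ∧
    v = F.w i

/-- Admissible offsets using the levels below `e`. -/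
def Off : ℕ → ℝ → ℝ → B → Prop
  | 0, _, _, z => z = 0
  | e + 1, t, x, z => ∃ y v, Off e t x y ∧ P.Adm F e t x v ∧ z = y + P.a e • v

/-- The layered set. -/
def carrier : Set B :=
  {p | ∃ e t x z, 0 ≤ t ∧ t ≤ 1 ∧ 0 ≤ x ∧ x ≤ 1 ∧ P.Off F e t x z ∧ p = t • F.e0 + x • F.e1 + z}

variable {P F}

lemma Adm.norm_le {e : ℕ} {t x : ℝ} {v : B} (h : P.Adm F e t x v) : ‖v‖ ≤ 2 := by
  rcases h with rfl | ⟨i, -, -, rfl⟩
  · simp
  · exact F.w_le i

lemma Adm.sep {e : ℕ} {t x t' x' : ℝ} {v v' : B} (h : P.Adm F e t x v) (h' : P.Adm F e t' x' v') :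
    v = v' ∨ F.Far (v - v') 1 := by
  rcases h with rfl | ⟨i, -, -, rfl⟩ <;> rcases h' with rfl | ⟨j, -, -, rfl⟩
  · exact Or.inl rfl
  · right; rw [zero_sub]; exact Frame.Far.neg F (F.w_ge j)
  · right; rw [sub_zero]; exact F.w_ge i
  · by_cases hij : i = j
    · exact Or.inl (by rw [hij])
    · exact Or.inr (F.w_sep i j hij)

lemma Off.mono {d d' : ℕ} {t x : ℝ} {z : B} (hd : d ≤ d') (h : P.Off F d t x z) :
    P.Off F d' t x z := by
  induction d', hd using Nat.le_induction with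
  | base => exact h
  | succ e _ ih => exact ⟨z, 0, ih, Or.inl rfl, by simp⟩

lemma Off.tail {d d' : ℕ} {t x : ℝ} (hd : d ≤ d') : ∀ {z : B}, P.Off F d' t x z →
    ∃ y, P.Off F d t x y ∧ ‖z - y‖ ≤ 4 * P.a d - 4 * P.a d' := by
  induction d', hd using Nat.le_induction with
  | base => intro z h; exact ⟨z, h, by simp⟩
  | succ e _ ih =>
    rintro z ⟨y, v, hy, hv, rfl⟩
    obtain ⟨y', hy', hn⟩ := ih hy
    refine ⟨y', hy', ?_⟩
    have e1 : y + P.a e • v - y' = (y - y') + P.a e • v := by abel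
    rw [e1]
    refine (norm_add_le _ _).trans ?_
    rw [norm_smul, Real.norm_of_nonneg (P.a_pos e).le]
    have h1 := hv.norm_le
    have h2 := P.a_succ_le e
    have h3 := P.a_pos e
    have h4 := P.a_pos (e + 1)
    nlinarith

lemma Off.tail' {d d' : ℕ} {t x : ℝ} {z : B} (h : P.Off F d' t x z) :
    ∃ y, P.Off F d t x y ∧ ‖z - y‖ ≤ 4 * P.a d := by
  obtain ⟨y, hy, hn⟩ := Off.tail (le_max_left d d') (h.mono (le_max_right d d'))
  exact ⟨y, hy, by linarith [P.a_pos (max d d')]⟩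

lemma Off.sep {d : ℕ} {t x t' x' : ℝ} : ∀ {z z' : B}, P.Off F d t x z → P.Off F d t' x' z' →
    z = z' ∨ F.Far (z - z') (1000 * P.a d) := by
  induction d with
  | zero => intro z z' h h'; exact Or.inl (h.trans h'.symm)
  | succ e ih =>
    rintro z z' ⟨y, v, hy, hv, rfl⟩ ⟨y', v', hy', hv', rfl⟩
    have h2 := P.a_succ_le e
    have h3 := P.a_pos e
    have h4 := P.a_pos (e + 1)
    rcases ih hy hy' with rfl | hfar
    · rcases hv.sep hv' with rfl | hf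
      · exact Or.inl rfl
      · right
        have e1 : y + P.a e • v - (y + P.a e • v') = P.a e • (v - v') := by
          rw [smul_sub]; abel
        rw [e1]
        intro s t
        linarith [Frame.Far.smul F hf h3 s t]
    · right
      intro s t
      have h5 := hfar s t
      have e1 : s • F.e0 + t • F.e1 + (y - y') =
          (s • F.e0 + t • F.e1 + (y + P.a e • v - (y' + P.a e • v'))) - P.a e • (v - v') := by
        rw [smul_sub]; abel
      rw [e1] at h5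
      have h6 := norm_sub_le (s • F.e0 + t • F.e1 + (y + P.a e • v - (y' + P.a e • v')))
        (P.a e • (v - v'))
      rw [norm_smul, Real.norm_of_nonneg h3.le] at h6
      have h7 := norm_sub_le_of_le hv.norm_le hv'.norm_le
      nlinarith

variable (P F)

lemma offsets_cover (x₀ : B) (r : ℝ) (hr : 0 < r) :
    ∃ ζ₀ ζ₁ ζ₂ : B, ∀ p ∈ P.carrier F, ‖p - x₀‖ ≤ 3 * r →
      (∃ s t : ℝ, ‖p - (s • F.e0 + t • F.e1 + ζ₀)‖ ≤ r / 10) ∨
      (∃ s t : ℝ, ‖p - (s • F.e0 + t • F.e1 + ζ₁)‖ ≤ r / 10) ∨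
      (∃ s t : ℝ, ‖p - (s • F.e0 + t • F.e1 + ζ₂)‖ ≤ r / 10) := by
  classical
  have hex : ∃ d, P.a d < r / 40 := by
    obtain ⟨n, hn⟩ := exists_pow_lt_of_lt_one (show 0 < r / 40 by positivity)
      (show (1 / 2 : ℝ) < 1 by norm_num)
    exact ⟨n, (P.a_le n).trans_lt hn⟩
  have hd := Nat.find_spec hex
  have hdec : ∀ p ∈ P.carrier F, ∃ t x y, P.Off F (Nat.find hex) t x y ∧
      ‖p - (t • F.e0 + x • F.e1 + y)‖ ≤ r / 10 := by
    rintro p ⟨e, t, x, z, -, -, -, -, hz, rfl⟩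
    obtain ⟨y, hy, hn⟩ := hz.tail' (d := Nat.find hex)
    refine ⟨t, x, y, hy, ?_⟩
    rw [add_sub_add_left_eq_sub]
    linarith
  rcases h0 : Nat.find hex with _ | d
  · refine ⟨0, 0, 0, fun p hp _ => Or.inl ?_⟩
    obtain ⟨t, x, y, hy, hn⟩ := hdec p hp
    rw [h0] at hy
    obtain rfl : y = 0 := hy
    exact ⟨t, x, hn⟩
  have hd' : r / 40 ≤ P.a d := not_lt.mp (Nat.find_min hex (by omega))
  rw [h0] at hdec
  by_cases hne : ∃ p ∈ P.carrier F, ‖p - x₀‖ ≤ 3 * r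
  swap
  · exact ⟨0, 0, 0, fun p h1 h2 => absurd ⟨p, h1, h2⟩ hne⟩
  obtain ⟨p0, hp0, hp0'⟩ := hne
  obtain ⟨t0, x0, _, ⟨y0, v0, hy0, hv0, rfl⟩, hn0⟩ := hdec p0 hp0
  have hapos := P.a_pos d
  have hΓ : (2000 : ℝ) ≤ P.Γ d := by exact_mod_cast P.Γ_ge d
  obtain ⟨iV, hiV⟩ := cell_uniq (b := 2000 * P.a d) (by positivity) (P.N d) x0 (800 * P.a d)
    (by linarith)
  obtain ⟨iH, hiH⟩ := cell_uniq (b := P.Γ d * P.a d) (by positivity) (P.N d) t0 (800 * P.a d)
    (by nlinarith)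
  refine ⟨y0, y0 + P.a d • F.w iV, y0 + P.a d • F.w iH, fun p hp hp' => ?_⟩
  obtain ⟨t, x, _, ⟨y, v, hy, hv, rfl⟩, hn⟩ := hdec p hp
  have hclose : ‖(t - t0) • F.e0 + (x - x0) • F.e1 + (y - y0)‖ ≤ 252 * P.a d := by
    have e : (t - t0) • F.e0 + (x - x0) • F.e1 + (y - y0) = (((p - x₀) - (p0 - x₀)) +
        ((p0 - (t0 • F.e0 + x0 • F.e1 + (y0 + P.a d • v0))) -
          (p - (t • F.e0 + x • F.e1 + (y + P.a d • v))))) - P.a d • (v - v0) := by
      simp only [sub_smul, smul_sub]; abel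
    rw [e]
    have a1 := norm_sub_le_of_le hp' hp0'
    have a2 := norm_sub_le_of_le hn0 hn
    have a3 := norm_add_le_of_le a1 a2
    have a4 : ‖P.a d • (v - v0)‖ ≤ 4 * P.a d := by
      rw [norm_smul, Real.norm_of_nonneg hapos.le]
      have h7 := norm_sub_le_of_le hv.norm_le hv0.norm_le
      nlinarith
    refine (norm_sub_le_of_le a3 a4).trans ?_
    linarith
  rcases hy.sep hy0 with rfl | hfar
  swap
  · have := hfar (t - t0) (x - x0)
    linarith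
  rw [sub_self, add_zero] at hclose
  have c0 := F.coord0 (t - t0) (x - x0)
  have c1 := F.coord1 (t - t0) (x - x0)
  rcases hv with rfl | ⟨i, hi, hc | hc, rfl⟩
  · exact Or.inl ⟨t, x, by simpa using hn⟩
  · obtain rfl := hiV i hi x (by linarith) hc
    exact Or.inr (Or.inl ⟨t, x, hn⟩)
  · obtain rfl := hiH i hi t (by linarith) hc
    exact Or.inr (Or.inr ⟨t, x, hn⟩)

lemma weak_doubling (x₀ : B) (r : ℝ) (hr : 0 < r) :
    ∃ C : Finset B, C.card ≤ 3 * (401 * 401) ∧ ∀ p ∈ P.carrier F, ‖p - x₀‖ ≤ 3 * r →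
      ∃ c ∈ C, ‖p - c‖ ≤ r / 2 := by
  classical
  obtain ⟨ζ₀, ζ₁, ζ₂, h⟩ := P.offsets_cover F x₀ r hr
  obtain ⟨C₀, h₀, h₀'⟩ := F.plane_cover ζ₀ x₀ r hr
  obtain ⟨C₁, h₁, h₁'⟩ := F.plane_cover ζ₁ x₀ r hr
  obtain ⟨C₂, h₂, h₂'⟩ := F.plane_cover ζ₂ x₀ r hr
  refine ⟨C₀ ∪ C₁ ∪ C₂, ?_, fun p hp hp' => ?_⟩
  · have := card_union_le (C₀ ∪ C₁) C₂
    have := card_union_le C₀ C₁
    omega
  · rcases h p hp hp' with h | h | h
    · obtain ⟨c, hc, hc'⟩ := h₀' p hp' h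
      exact ⟨c, by simp [hc], hc'⟩
    · obtain ⟨c, hc, hc'⟩ := h₁' p hp' h
      exact ⟨c, by simp [hc], hc'⟩
    · obtain ⟨c, hc, hc'⟩ := h₂' p hp' h
      exact ⟨c, by simp [hc], hc'⟩

lemma norm_le_of_mem {p : B} (hp : p ∈ P.carrier F) : ‖p‖ ≤ 8 := by
  obtain ⟨e, t, x, z, h1, h2, h3, h4, hz, rfl⟩ := hp
  obtain ⟨y, hy, hn⟩ := hz.tail' (d := 0)
  obtain rfl : y = 0 := hy
  have a1 := F.norm_plane_le t x
  rw [abs_of_nonneg h1, abs_of_nonneg h3] at a1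
  have a2 := P.a_le 0
  rw [sub_zero] at hn
  refine (norm_add_le _ _).trans ?_
  simp only [pow_zero] at a2
  linarith

end Scheme

section closure

variable {X : Type*} [NormedAddCommGroup X]

lemma totallyBounded_of_weak {S : Set X} {Λ : ℕ} {R : ℝ} (hR : 0 < R) (hb : ∀ p ∈ S, ‖p‖ ≤ R)
    (h : ∀ (x₀ : X) (r : ℝ), 0 < r → ∃ C : Finset X, C.card ≤ Λ ∧ ∀ p ∈ S, ‖p - x₀‖ ≤ 3 * r →
      ∃ c ∈ C, ‖p - c‖ ≤ r / 2) : TotallyBounded S := by
  classical
  have key : ∀ n : ℕ, ∃ C : Finset X, ∀ p ∈ S, ∃ c ∈ C, ‖p - c‖ ≤ R * (1 / 6) ^ n := by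
    intro n
    induction n with
    | zero => exact ⟨{0}, fun p hp => ⟨0, by simp, by simpa using hb p hp⟩⟩
    | succ n ih =>
      obtain ⟨C, hC⟩ := ih
      choose D hD hD' using fun c => h c (R * (1 / 6) ^ n / 3) (by positivity)
      refine ⟨C.biUnion D, fun p hp => ?_⟩
      obtain ⟨c, hc, hc'⟩ := hC p hp
      obtain ⟨c', h1, h2⟩ := hD' c p hp (by linarith)
      exact ⟨c', mem_biUnion.mpr ⟨c, hc, h1⟩, h2.trans (le_of_eq (by ring))⟩
  rw [Metric.totallyBounded_iff]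
  intro ε hε
  obtain ⟨n, hn⟩ := exists_pow_lt_of_lt_one (show 0 < ε / R by positivity)
    (show (1 / 6 : ℝ) < 1 by norm_num)
  obtain ⟨C, hC⟩ := key n
  refine ⟨C, C.finite_toSet, fun p hp => ?_⟩
  obtain ⟨c, hc, hc'⟩ := hC p hp
  simp only [Set.mem_iUnion, Metric.mem_ball, dist_eq_norm]
  refine ⟨c, hc, hc'.trans_lt ?_⟩
  rw [lt_div_iff₀ hR] at hn
  linarith

lemma doubling_closure_of_weak {S : Set X} {Λ : ℕ}
    (h : ∀ (x₀ : X) (r : ℝ), 0 < r → ∃ C : Finset X, C.card ≤ Λ ∧ ∀ p ∈ S, ‖p - x₀‖ ≤ 3 * r →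
      ∃ c ∈ C, ‖p - c‖ ≤ r / 2) : Crest.GeometryTopology.DoublingConstLE (closure S) Λ := by
  classical
  intro x hx r hr
  obtain ⟨C, hC, hC'⟩ := h x r hr
  have hch : ∀ c : X, ∃ c' ∈ closure S, (∃ p ∈ closure S, ‖p - c‖ ≤ r / 2) → ‖c' - c‖ ≤ r / 2 := by
    intro c
    by_cases hc : ∃ p ∈ closure S, ‖p - c‖ ≤ r / 2
    · obtain ⟨p, hp, hp'⟩ := hc
      exact ⟨p, hp, fun _ => hp'⟩
    · exact ⟨x, hx, fun h => absurd h hc⟩
  choose g hg hg' using hch
  refine ⟨C.image g, ?_, card_image_le.trans hC, ?_⟩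
  · intro y hy
    obtain ⟨c, -, rfl⟩ := mem_image.mp (Finset.mem_coe.mp hy)
    exact hg c
  · rintro p ⟨hp, hp'⟩
    have h1 : p ∈ closure (S ∩ Metric.ball x (3 * r)) := by
      rw [Set.inter_comm]
      refine Metric.isOpen_ball.inter_closure ⟨?_, hp⟩
      rw [Metric.mem_closedBall] at hp'
      rw [Metric.mem_ball]; linarith
    have h2 : closure (S ∩ Metric.ball x (3 * r)) ⊆ ⋃ c ∈ C, Metric.closedBall c (r / 2) := by
      refine closure_minimal ?_ (C.finite_toSet.isClosed_biUnion fun _ _ =>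
        Metric.isClosed_closedBall)
      rintro y ⟨hy, hy'⟩
      rw [Metric.mem_ball, dist_eq_norm] at hy'
      obtain ⟨c, hc, hc'⟩ := hC' y hy hy'.le
      simp only [Set.mem_iUnion, Metric.mem_closedBall, dist_eq_norm]
      exact ⟨c, hc, hc'⟩
    have h3 := h2 h1
    simp only [Set.mem_iUnion, Metric.mem_closedBall, dist_eq_norm] at h3 ⊢
    obtain ⟨c, hc, hc'⟩ := h3
    refine ⟨g c, mem_image_of_mem g hc, ?_⟩
    have h4 := hg' c ⟨p, hp, hc'⟩
    have e : p - g c = (p - c) - (g c - c) := by abel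
    rw [e]
    refine (norm_sub_le_of_le hc' h4).trans (by linarith)

end closure

end Crest.Agent.R254
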