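import Mathlib

/-! Elementary Hilbert-space lemmas for row 254 (selection of a rigid period, slope gain). -/

set_option autoImplicit false

namespace Crest.Agent.R254

open Finset

variable {H : Type*} [NormedAddCommGroup H] [InnerProductSpace ℝ H]

lemma sum_range_mul' (f : ℕ → ℝ) (R U : ℕ) :
    ∑ m ∈ range (R * U), f m = ∑ r ∈ range R, ∑ i ∈ range U, f (r * U + i) := by
  induction R with
  | zero => simp
  | succ R ih => rw [Nat.succ_mul, sum_range_add, ih, sum_range_succ]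

omit [InnerProductSpace ℝ H] in
lemma osc_aux (d : ℕ → H) (p U m m' : ℕ) (h1 : p ≤ m) (h2 : m ≤ m') (h3 : m' ≤ p + U) :
    ‖d m' - d m‖ ^ 2 ≤ U * ∑ i ∈ range U, ‖d (p + i + 1) - d (p + i)‖ ^ 2 := by
  obtain ⟨a, rfl⟩ := Nat.exists_eq_add_of_le h1
  obtain ⟨b, rfl⟩ := Nat.exists_eq_add_of_le h2
  have hab : a + b ≤ U := by omega
  have e1 : d (p + a + b) - d (p + a) = ∑ i ∈ Ico a (a + b), (d (p + i + 1) - d (p + i)) := by
    have := Finset.sum_Ico_sub (fun i => d (p + i)) (Nat.le_add_right a b)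
    simp only [← add_assoc] at this
    rw [← this]
  have e2 : ‖d (p + a + b) - d (p + a)‖ ≤ ∑ i ∈ range U, ‖d (p + i + 1) - d (p + i)‖ := by
    rw [e1]
    refine (norm_sum_le _ _).trans ?_
    refine sum_le_sum_of_subset_of_nonneg ?_ (fun _ _ _ => norm_nonneg _)
    intro i hi
    simp only [mem_Ico, mem_range] at hi ⊢
    omega
  have e3 := sq_sum_le_card_mul_sum_sq (s := range U) (f := fun i => ‖d (p + i + 1) - d (p + i)‖)
  rw [card_range] at e3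
  exact (pow_le_pow_left₀ (norm_nonneg _) e2 2).trans e3

omit [InnerProductSpace ℝ H] in
lemma osc_le (d : ℕ → H) (p U m m' : ℕ) (h1 : p ≤ m) (h2 : m ≤ p + U) (h1' : p ≤ m')
    (h2' : m' ≤ p + U) :
    ‖d m - d m'‖ ^ 2 ≤ U * ∑ i ∈ range U, ‖d (p + i + 1) - d (p + i)‖ ^ 2 := by
  rcases le_total m m' with h | h
  · rw [norm_sub_rev]; exact osc_aux d p U m m' h1 h h2'
  · exact osc_aux d p U m' m h1' h h2

lemma sum_sq_dev_le (φ : ℕ → H) (V : H) (T L : ℕ) (A η : ℝ)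
    (h1 : ‖φ (T + L) - φ T‖ ≤ A)
    (h2 : ∀ m, T ≤ m → m < T + L → ‖φ (m + 1) - φ m + V‖ ^ 2 ≤ ‖V‖ ^ 2 + η) :
    ∑ i ∈ range L, ‖φ (T + i + 1) - φ (T + i)‖ ^ 2 ≤ L * η + 2 * A * ‖V‖ := by
  have e1 : ∀ i ∈ range L, ‖φ (T + i + 1) - φ (T + i)‖ ^ 2 ≤
      η - 2 * inner ℝ (φ (T + i + 1) - φ (T + i)) V := by
    intro i hi
    have := h2 (T + i) (Nat.le_add_right _ _) (by simp only [mem_range] at hi; omega)
    rw [norm_add_sq_real] at this
    linarith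
  refine (sum_le_sum e1).trans ?_
  rw [sum_sub_distrib, ← mul_sum, ← sum_inner, sum_const, card_range, nsmul_eq_mul]
  have e2 : ∑ i ∈ range L, (φ (T + i + 1) - φ (T + i)) = φ (T + L) - φ T := by
    have := Finset.sum_range_sub (fun i => φ (T + i)) L
    simpa only [← add_assoc, add_zero] using this
  rw [e2]
  have e3 := abs_real_inner_le_norm (φ (T + L) - φ T) V
  have e4 := neg_abs_le (inner ℝ (φ (T + L) - φ T) V)
  have e5 : ‖φ (T + L) - φ T‖ * ‖V‖ ≤ A * ‖V‖ := mul_le_mul_of_nonneg_right h1 (norm_nonneg _)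
  linarith

/-- Selection of a period on which all lines are nearly constant. -/
lemma select {ι : Type*} [Fintype ι] (φ : ι → ℕ → H) (V : H) (T U R : ℕ) (hR : 0 < R)
    (A η ε : ℝ) (hε : 0 ≤ ε)
    (h1 : ∀ y, ‖φ y (T + R * U) - φ y T‖ ≤ A)
    (h2 : ∀ y m, T ≤ m → m < T + R * U → ‖φ y (m + 1) - φ y m + V‖ ^ 2 ≤ ‖V‖ ^ 2 + η)
    (h3 : (Fintype.card ι : ℝ) * U * (U * η + 2 * A * ‖V‖ / R) ≤ ε ^ 2) :
    ∃ r < R, ∀ y m m', T + r * U ≤ m → m ≤ T + r * U + U → T + r * U ≤ m' →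
      m' ≤ T + r * U + U → ‖φ y m - φ y m'‖ ≤ ε := by
  set c : ℕ → ℝ := fun r => ∑ y, ∑ i ∈ range U,
    ‖φ y (T + r * U + i + 1) - φ y (T + r * U + i)‖ ^ 2 with hc
  have hRpos : (0 : ℝ) < R := by exact_mod_cast hR
  have hsum : ∑ r ∈ range R, c r ≤
      ∑ r ∈ range R, (Fintype.card ι : ℝ) * (U * η + 2 * A * ‖V‖ / R) := by
    rw [sum_const, card_range, nsmul_eq_mul, hc]
    simp only
    rw [sum_comm]
    have : ∀ y ∈ (univ : Finset ι), ∑ r ∈ range R, ∑ i ∈ range U,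
        ‖φ y (T + r * U + i + 1) - φ y (T + r * U + i)‖ ^ 2 ≤ (R * U : ℕ) * η + 2 * A * ‖V‖ := by
      intro y _
      have h := sum_sq_dev_le (φ y) V T (R * U) A η (h1 y) (h2 y)
      rw [sum_range_mul' (fun i => ‖φ y (T + i + 1) - φ y (T + i)‖ ^ 2)] at h
      simpa only [← add_assoc] using h
    refine (sum_le_sum this).trans (le_of_eq ?_)
    rw [sum_const, card_univ, nsmul_eq_mul]
    push_cast
    field_simp
  obtain ⟨r, hr, hle⟩ := exists_le_of_sum_le (by simp; omega) hsum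
  refine ⟨r, mem_range.mp hr, fun y m m' a1 a2 a3 a4 => ?_⟩
  have o := osc_le (φ y) (T + r * U) U m m' a1 a2 a3 a4
  have hy : ∑ i ∈ range U, ‖φ y (T + r * U + i + 1) - φ y (T + r * U + i)‖ ^ 2 ≤ c r :=
    single_le_sum (f := fun y => ∑ i ∈ range U,
      ‖φ y (T + r * U + i + 1) - φ y (T + r * U + i)‖ ^ 2)
      (fun y _ => sum_nonneg fun _ _ => sq_nonneg _) (mem_univ y)
  have hU : (0 : ℝ) ≤ U := Nat.cast_nonneg _
  have : ‖φ y m - φ y m'‖ ^ 2 ≤ ε ^ 2 := by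
    calc _ ≤ U * c r := o.trans (mul_le_mul_of_nonneg_left hy hU)
      _ ≤ U * ((Fintype.card ι : ℝ) * (U * η + 2 * A * ‖V‖ / R)) :=
          mul_le_mul_of_nonneg_left hle hU
      _ = (Fintype.card ι : ℝ) * U * (U * η + 2 * A * ‖V‖ / R) := by ring
      _ ≤ _ := h3
  exact (pow_le_pow_iff_left₀ (norm_nonneg _) hε two_ne_zero).mp this

/-- The gain lemma: two parallel arithmetic progressions whose difference oscillates. -/
lemma gain (g h : ℕ → H) (P R : ℕ) (hP : 0 < P) (hR : 0 < R) (S δ B₁ B₂ : ℝ) (hδ : 0 ≤ δ)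
    (good : Finset ℕ) (hgood : good ⊆ range R)
    (hS : ∀ m < R * P, ‖g (m + 1) - g m‖ ^ 2 ≤ S ∧ ‖h (m + 1) - h m‖ ^ 2 ≤ S)
    (hdev : ∀ r ∈ good, ∃ m m', r * P ≤ m ∧ m ≤ r * P + P ∧ r * P ≤ m' ∧ m' ≤ r * P + P ∧
      δ ≤ ‖(h m - g m) - (h m' - g m')‖)
    (hd : ‖(h (R * P) - g (R * P)) - (h 0 - g 0)‖ ≤ B₁) (hG : ‖g (R * P) - g 0‖ ≤ B₂) :
    ‖g (R * P) - g 0‖ ^ 2 ≤ ((R * P : ℕ) : ℝ) ^ 2 * S + B₁ * B₂
      - R * good.card * δ ^ 2 / 4 := by
  set ρ : ℝ := ((R * P : ℕ) : ℝ) with hρ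
  have hρ' : ρ = R * P := by rw [hρ]; push_cast; ring
  have hPpos : (0 : ℝ) < P := by exact_mod_cast hP
  have hRpos : (0 : ℝ) < R := by exact_mod_cast hR
  set d : ℕ → H := fun m => h m - g m with hd'
  set s : ℕ → H := fun m => h m + g m with hs'
  have par : ∀ m, ‖s (m + 1) - s m‖ ^ 2 + ‖d (m + 1) - d m‖ ^ 2 =
      2 * (‖h (m + 1) - h m‖ ^ 2 + ‖g (m + 1) - g m‖ ^ 2) := by
    intro m
    have := parallelogram_law_with_norm ℝ (h (m + 1) - h m) (g (m + 1) - g m)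
    have e1 : s (m + 1) - s m = h (m + 1) - h m + (g (m + 1) - g m) := by simp only [hs']; abel
    have e2 : d (m + 1) - d m = h (m + 1) - h m - (g (m + 1) - g m) := by simp only [hd']; abel
    rw [e1, e2]
    nlinarith [this]
  have hsum : ∑ m ∈ range (R * P), ‖s (m + 1) - s m‖ ^ 2 +
      ∑ m ∈ range (R * P), ‖d (m + 1) - d m‖ ^ 2 ≤ 4 * ρ * S := by
    rw [← sum_add_distrib]
    have : ∀ m ∈ range (R * P), ‖s (m + 1) - s m‖ ^ 2 + ‖d (m + 1) - d m‖ ^ 2 ≤ 4 * S := by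
      intro m hm
      rw [par]
      have := hS m (mem_range.mp hm)
      linarith [this.1, this.2]
    refine (sum_le_sum this).trans (le_of_eq ?_)
    rw [sum_const, card_range, nsmul_eq_mul]; ring
  have h1 : ‖s (R * P) - s 0‖ ^ 2 ≤ ρ * ∑ m ∈ range (R * P), ‖s (m + 1) - s m‖ ^ 2 := by
    have := osc_le s 0 (R * P) (R * P) 0 (by omega) (by omega) (by omega) (by omega)
    simpa only [zero_add] using this
  have h2 : good.card * δ ^ 2 ≤ P * ∑ m ∈ range (R * P), ‖d (m + 1) - d m‖ ^ 2 := by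
    rw [sum_range_mul' (fun m => ‖d (m + 1) - d m‖ ^ 2), mul_sum]
    calc (good.card : ℝ) * δ ^ 2 = ∑ r ∈ good, δ ^ 2 := by rw [sum_const, nsmul_eq_mul]
      _ ≤ ∑ r ∈ good, P * ∑ i ∈ range P, ‖d (r * P + i + 1) - d (r * P + i)‖ ^ 2 := by
          refine sum_le_sum fun r hr => ?_
          obtain ⟨m, m', a1, a2, a3, a4, a5⟩ := hdev r hr
          exact (pow_le_pow_left₀ hδ a5 2).trans (osc_le d (r * P) P m m' a1 a2 a3 a4)
      _ ≤ _ := sum_le_sum_of_subset_of_nonneg hgood fun _ _ _ =>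
          mul_nonneg hPpos.le (sum_nonneg fun _ _ => sq_nonneg _)
  have h3 : 4 * ‖g (R * P) - g 0‖ ^ 2 - 4 * (B₁ * B₂) ≤ ‖s (R * P) - s 0‖ ^ 2 := by
    have e : s (R * P) - s 0 = (2 : ℝ) • (g (R * P) - g 0) + (d (R * P) - d 0) := by
      simp only [hs', hd', two_smul]; abel
    rw [e, norm_add_sq_real, norm_smul, real_inner_smul_left]
    have e3 := abs_real_inner_le_norm (g (R * P) - g 0) (d (R * P) - d 0)
    have e4 := neg_abs_le (inner ℝ (g (R * P) - g 0) (d (R * P) - d 0))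
    have e5 : ‖g (R * P) - g 0‖ * ‖d (R * P) - d 0‖ ≤ B₂ * B₁ :=
      mul_le_mul hG hd (norm_nonneg _) ((norm_nonneg _).trans hG)
    have e6 : ‖(2 : ℝ)‖ = 2 := by simp
    rw [e6]
    nlinarith [sq_nonneg ‖d (R * P) - d 0‖]
  have hρpos : 0 < ρ := by rw [hρ']; positivity
  have h4 : ρ * (∑ m ∈ range (R * P), ‖s (m + 1) - s m‖ ^ 2 +
      ∑ m ∈ range (R * P), ‖d (m + 1) - d m‖ ^ 2) ≤ ρ * (4 * ρ * S) :=
    mul_le_mul_of_nonneg_left hsum hρpos.le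
  have h5 : R * (good.card * δ ^ 2) ≤ ρ * ∑ m ∈ range (R * P), ‖d (m + 1) - d m‖ ^ 2 := by
    rw [hρ', mul_assoc]
    exact mul_le_mul_of_nonneg_left h2 hRpos.le
  nlinarith [h1, h3, h4, h5]

end Crest.Agent.R254
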