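import Crest.Agent.R254.Core

/-! The inner (horizontal) loop of the non-embedding argument for row 254. -/

set_option autoImplicit false
set_option linter.unusedSectionVars false

namespace Crest.Agent.R254

open Finset

variable {B H : Type*} [NormedAddCommGroup B] [NormedSpace ℝ B]
  [NormedAddCommGroup H] [InnerProductSpace ℝ H]

lemma cle {b : ℝ} (hb : 0 < b) {m n : ℕ} (h : m ≤ n) : (m : ℝ) * b ≤ (n : ℝ) * b :=
  mul_le_mul_of_nonneg_right (Nat.cast_le.mpr h) hb.le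

lemma Setup.ref_move (S : Setup B H) {d d' : ℕ} {t0 t1 x x' : ℝ} {z z' : B} {u0 u1 : H}
    {A C : ℝ}
    (o0 : S.Ok d t0 x z) (o1 : S.Ok d t1 x z) (o0' : S.Ok d' t0 x' z') (o1' : S.Ok d' t1 x' z')
    (hA : ‖(S.G t1 x z - u1) - (S.G t0 x z - u0)‖ ≤ A)
    (hC : 2 * |x' - x| + ‖z' - z‖ ≤ C) :
    ‖(S.G t1 x' z' - u1) - (S.G t0 x' z' - u0)‖ ≤ A + 2 * S.M * C := by
  have h0 := S.up o0' o0
  have h1 := S.up o1' o1
  simp only [sub_self, abs_zero, mul_zero, zero_add] at h0 h1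
  have hM := S.one_le_M
  have e : (S.G t1 x' z' - u1) - (S.G t0 x' z' - u0) = ((S.G t1 x z - u1) - (S.G t0 x z - u0)) +
      ((S.G t1 x' z' - S.G t1 x z) - (S.G t0 x' z' - S.G t0 x z)) := by abel
  rw [e]
  have t1 := norm_sub_le_of_le h1 h0
  have t2 : S.M * (2 * |x' - x| + ‖z' - z‖) ≤ S.M * C := mul_le_mul_of_nonneg_left hC (by linarith)
  refine (norm_add_le _ _).trans ?_
  linarith

lemma sel_ineq (M q N ρ Γ K R h a η Q U R' V : ℝ) (hM : 1 ≤ M) (hq : 1 ≤ q) (hN : 1 ≤ N)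
    (hρ : 1 ≤ ρ) (hΓ : 1 ≤ Γ) (hR : 1 ≤ R) (hh : 0 < h) (ha : 0 < a) (hη0 : 0 ≤ η) (hQ0 : 0 ≤ Q)
    (hQ : Q ≤ 4 * ρ ^ 2) (hU0 : 0 ≤ U) (hU : U * h = 2 * N * Γ * a) (hR' : R' = K * Γ * R)
    (hV0 : 0 ≤ V) (hV : V ≤ 2 * M * h)
    (hK : 393216 * ρ ^ 4 * M ^ 2 * q * N ≤ K) (hη : 8192 * ρ ^ 2 * N ^ 2 * Γ ^ 2 * η ≤ 1) :
    Q * U * (U * (η * h ^ 2) + 2 * (24 * M * ρ * (ρ * (q * a))) * V / R') ≤ (a / 16) ^ 2 := by
  have hKpos : 0 < K := lt_of_lt_of_le (by positivity) hK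
  have hR'pos : 0 < R' := by rw [hR']; positivity
  have e1 : Q * U * (U * (η * h ^ 2)) ≤ a ^ 2 / 512 := by
    calc Q * U * (U * (η * h ^ 2)) = Q * ((U * h) ^ 2 * η) := by ring
      _ ≤ 4 * ρ ^ 2 * ((U * h) ^ 2 * η) := by gcongr
      _ = (8192 * ρ ^ 2 * N ^ 2 * Γ ^ 2 * η) * (a ^ 2 / 512) := by rw [hU]; ring
      _ ≤ 1 * (a ^ 2 / 512) := by gcongr
      _ = _ := by ring
  have e2 : Q * U * (2 * (24 * M * ρ * (ρ * (q * a))) * V / R') ≤ a ^ 2 / 512 := by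
    calc Q * U * (2 * (24 * M * ρ * (ρ * (q * a))) * V / R')
        ≤ 4 * ρ ^ 2 * U * (2 * (24 * M * ρ * (ρ * (q * a))) * (2 * M * h) / R') := by gcongr
      _ = (393216 * ρ ^ 4 * M ^ 2 * q * N) * Γ * (a ^ 2 / 512) / R' := by
          have : 4 * ρ ^ 2 * U * (2 * (24 * M * ρ * (ρ * (q * a))) * (2 * M * h) / R') =
            384 * ρ ^ 4 * M ^ 2 * q * a * (U * h) / R' := by ring
          rw [this, hU]; ring
      _ ≤ K * Γ * (a ^ 2 / 512) / R' := by gcongr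
      _ = (a ^ 2 / 512) / R := by rw [hR']; field_simp
      _ ≤ a ^ 2 / 512 := div_le_self (by positivity) hR
  calc _ = Q * U * (U * (η * h ^ 2)) + Q * U * (2 * (24 * M * ρ * (ρ * (q * a))) * V / R') := by
        ring
    _ ≤ a ^ 2 / 512 + a ^ 2 / 512 := add_le_add e1 e2
    _ = _ := by ring

lemma fin_ineq (M q N R0 ρ a n X : ℝ) (hM : 1 ≤ M) (hq : 1 ≤ q) (hN : 1 ≤ N) (hR0 : 1 ≤ R0)
    (ha : 0 < a) (hρ' : ρ = N * R0 * (2 * N)) (hρ : 1152 * M ^ 2 * N ^ 3 * q ≤ ρ)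
    (hX : X ≤ ρ ^ 2 * ((4 * M ^ 2 - n / (128 * N ^ 3 * q ^ 2)) * (q * a) ^ 2) +
      9 * M ^ 2 * a * (ρ * (q * a)) - N * R0 * R0 * a ^ 2 / 16) :
    X ≤ (4 * M ^ 2 - (n + 1) / (128 * N ^ 3 * q ^ 2)) * (ρ * (q * a)) ^ 2 := by
  have hρpos : 0 < ρ := by rw [hρ']; positivity
  have e1 : N * R0 * R0 * a ^ 2 / 16 = 2 * ((ρ * (q * a)) ^ 2 / (128 * N ^ 3 * q ^ 2)) := by
    rw [hρ']; field_simp; ring
  have e2 : 9 * M ^ 2 * a * (ρ * (q * a)) ≤ (ρ * (q * a)) ^ 2 / (128 * N ^ 3 * q ^ 2) := by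
    rw [le_div_iff₀ (by positivity)]
    calc 9 * M ^ 2 * a * (ρ * (q * a)) * (128 * N ^ 3 * q ^ 2)
        = (1152 * M ^ 2 * N ^ 3 * q) * (ρ * (q * a) ^ 2) := by ring
      _ ≤ ρ * (ρ * (q * a) ^ 2) := by gcongr
      _ = _ := by ring
  have e3 : (4 * M ^ 2 - (n + 1) / (128 * N ^ 3 * q ^ 2)) * (ρ * (q * a)) ^ 2 =
      ρ ^ 2 * ((4 * M ^ 2 - n / (128 * N ^ 3 * q ^ 2)) * (q * a) ^ 2) -
        (ρ * (q * a)) ^ 2 / (128 * N ^ 3 * q ^ 2) := by ring
  rw [e3]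
  linarith

lemma Setup.inner (S : Setup B H) (N R0 ρ K k eend Ω' : ℕ) (Γ : ℕ → ℕ) (hN : 0 < N) (hR0 : 0 < R0)
    (hρdef : ρ = N * R0 * (2 * N)) (hp : Pack H N S.M)
    (hΓ : ∀ n, Γ (n + 1) = K * Γ n ^ 2) (hΓpos : ∀ n, 0 < Γ n)
    (h bn η : ℝ) (hh : 0 < h) (hbn : 0 < bn) (hΩ : 2 ≤ Ω') (hqh : S.q * h = Ω' * bn)
    (hη0 : 0 ≤ η) (V : H) (hV : ‖V‖ ≤ 2 * S.M * h)
    (NG : ∀ (m X : ℕ) (z : B), S.Room eend (m * h) (((m + 1 : ℕ) : ℝ) * h) (X * bn)
        (((X + 2 : ℕ) : ℝ) * bn) z →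
      ‖S.G (((m + 1 : ℕ) : ℝ) * h) (X * bn) z - S.G (m * h) (X * bn) z‖ ^ 2 ≤ ‖V‖ ^ 2 + η * h ^ 2)
    (plan : ∀ n < k, ∀ d, d + n + 1 = eend →
      S.Ext d N ((ρ : ℝ) ^ n * h) (((Γ n * ρ ^ n : ℕ) : ℝ) * h))
    (hρ : 1152 * S.M ^ 2 * N ^ 3 * S.q ≤ ρ) (hK : 393216 * ρ ^ 4 * S.M ^ 2 * S.q * N ≤ K)
    (hη : ∀ n < k, 8192 * (ρ : ℝ) ^ 2 * N ^ 2 * (Γ n : ℝ) ^ 2 * η ≤ 1) :
    ∀ n ≤ k, ∀ d, d + n = eend → ∀ (ι : Type) [Fintype ι], Fintype.card ι ≤ 2 * ρ →
      ∀ (z : ι → B) (X : ι → ℕ) (T : ℕ),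
      (∀ y, S.Room d (((T * (Γ n * ρ ^ n) : ℕ) : ℝ) * h) ((((T + 1) * (Γ n * ρ ^ n) : ℕ) : ℝ) * h)
        (X y * (S.q * ((ρ : ℝ) ^ n * h))) (((X y + 2 : ℕ) : ℝ) * (S.q * ((ρ : ℝ) ^ n * h))) (z y)) →
      (∀ y, ‖(S.G ((((T + 1) * (Γ n * ρ ^ n) : ℕ) : ℝ) * h) (X y * (S.q * ((ρ : ℝ) ^ n * h))) (z y)
            - (((T + 1) * (Γ n * ρ ^ n) : ℕ) : ℝ) • V) -
          (S.G (((T * (Γ n * ρ ^ n) : ℕ) : ℝ) * h) (X y * (S.q * ((ρ : ℝ) ^ n * h))) (z y)
            - ((T * (Γ n * ρ ^ n) : ℕ) : ℝ) • V)‖ ≤ 12 * S.M * ρ * (S.q * ((ρ : ℝ) ^ n * h))) →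
      ∃ m : ℕ, T * (Γ n * ρ ^ n) ≤ m ∧ m ≤ (T + 1) * (Γ n * ρ ^ n) ∧ ∀ y,
        ‖S.G (m * h) (((X y + 1 : ℕ) : ℝ) * (S.q * ((ρ : ℝ) ^ n * h))) (z y) -
          S.G (m * h) (X y * (S.q * ((ρ : ℝ) ^ n * h))) (z y)‖ ^ 2 ≤
          (4 * S.M ^ 2 - n / (128 * N ^ 3 * S.q ^ 2)) * (S.q * ((ρ : ℝ) ^ n * h)) ^ 2 := by
  classical
  have hM := S.one_le_M
  have hq : (1 : ℝ) ≤ S.q := by exact_mod_cast S.one_le_q
  have hN' : (1 : ℝ) ≤ N := by exact_mod_cast hN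
  have hR0' : (1 : ℝ) ≤ R0 := by exact_mod_cast hR0
  have hρpos : 0 < ρ := by rw [hρdef]; positivity
  have hρ' : (1 : ℝ) ≤ ρ := by exact_mod_cast hρpos
  have hKpos : 0 < K := by
    have : (0 : ℝ) < K := lt_of_lt_of_le (by positivity) hK
    exact_mod_cast this
  intro n
  induction n with
  | zero =>
    intro _ d _ ι _ _ z X T hroom _
    refine ⟨T * (Γ 0 * ρ ^ 0), le_rfl, Nat.mul_le_mul_right _ (Nat.le_succ _), fun y => ?_⟩
    set β := S.q * ((ρ : ℝ) ^ 0 * h) with hβ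
    have hβpos : 0 < β := by positivity
    have ht : ((T * (Γ 0 * ρ ^ 0) : ℕ) : ℝ) * h ≤ (((T + 1) * (Γ 0 * ρ ^ 0) : ℕ) : ℝ) * h := by
      gcongr; omega
    have o1 := hroom y _ (((X y + 1 : ℕ) : ℝ) * β) le_rfl ht (by gcongr; omega) (by gcongr; omega)
    have o0 := hroom y _ ((X y : ℝ) * β) le_rfl ht le_rfl (by gcongr; omega)
    have := S.up o1 o0
    have e : ((X y + 1 : ℕ) : ℝ) * β - (X y : ℝ) * β = β := by push_cast; ring
    rw [e, abs_of_pos hβpos] at this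
    simp only [sub_self, abs_zero, norm_zero, mul_zero, zero_add, add_zero] at this
    have := pow_le_pow_left₀ (norm_nonneg _) this 2
    simp only [Nat.cast_zero, zero_div, sub_zero]
    nlinarith
  | succ n ih =>
    intro hn d hd ι _ hι z X T hroom href
    have ih' := ih (by omega) (d + 1) (by omega)
    have hext := plan n (by omega) d (by omega)
    set a : ℝ := (ρ : ℝ) ^ n * h with ha
    have hapos : 0 < a := by positivity
    set b : ℝ := S.q * a with hb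
    have hbpos : 0 < b := by positivity
    have hab : a ≤ b := by rw [hb]; nlinarith
    have hβ : S.q * ((ρ : ℝ) ^ (n + 1) * h) = ρ * b := by rw [hb, ha]; ring
    rw [hβ] at hroom href ⊢
    set ν : ℕ := Γ n * ρ ^ n with hν
    set R : ℕ := N * R0 with hR
    have hRpos : 0 < R := Nat.mul_pos hN hR0
    set U : ℕ := 2 * N * ν with hU
    set R' : ℕ := K * Γ n * R with hR'
    have hR'pos : 0 < R' := by have := hΓpos n; positivity
    have hν1 : Γ (n + 1) * ρ ^ (n + 1) = R' * U := by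
      rw [hΓ, hR', hU, hν, pow_succ ρ n]
      conv_lhs => rw [show ρ ^ n * ρ = ρ ^ n * (R * (2 * N)) by rw [← hρdef]]
      ring
    rw [hν1] at hroom href ⊢
    have hT1 : (T + 1) * (R' * U) = T * (R' * U) + R' * U := by ring
    rw [hT1] at hroom href ⊢
    set T0 := T * (R' * U) with hT0
    -- admissibility in units of `b`
    have hroom' : ∀ y (t x : ℝ), (T0 : ℝ) * h ≤ t → t ≤ ((T0 + R' * U : ℕ) : ℝ) * h →
        ((X y * ρ : ℕ) : ℝ) * b ≤ x → x ≤ ((X y * ρ + 2 * ρ : ℕ) : ℝ) * b → S.Ok d t x (z y) := by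
      intro y t x h1 h2 h3 h4
      refine hroom y t x h1 h2 (le_trans (le_of_eq ?_) h3) (h4.trans (le_of_eq ?_)) <;>
        (push_cast; ring)
    have hposle : ∀ r ≤ R, ∀ i < N, r * (2 * N) + 2 * i + 1 ≤ 2 * ρ := by
      intro r hr i hi
      have h1 : r * (2 * N) ≤ R * (2 * N) := Nat.mul_le_mul_right _ hr
      have h2 : 1 * (2 * N) ≤ R * (2 * N) := Nat.mul_le_mul_right _ hRpos
      omega
    -- lines
    set off : ι → ℕ → Bool → B := fun y i l => if l then z y + a • S.w i else z y with hoff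
    have hoffd : ∀ y i l, ‖off y i l - z y‖ ≤ 2 * a := by
      intro y i l
      cases l
      · simp only [hoff]; simp; positivity
      · simp only [hoff, if_true, add_sub_cancel_left]
        rw [norm_smul, Real.norm_of_nonneg hapos.le]
        nlinarith [S.w_le i]
    have hline : ∀ y, ∀ r ≤ R, ∀ i < N, ∀ l, ∀ t x : ℝ, (T0 : ℝ) * h ≤ t →
        t ≤ ((T0 + R' * U : ℕ) : ℝ) * h → ((X y * ρ + r * (2 * N) + 2 * i : ℕ) : ℝ) * b ≤ x →
        x ≤ ((X y * ρ + r * (2 * N) + 2 * i + 1 : ℕ) : ℝ) * b → S.Ok (d + 1) t x (off y i l) := by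
      intro y r hr i hi l t x h1 h2 h3 h4
      have hp := hposle r hr i hi
      have o : S.Ok d t x (z y) := hroom' y t x h1 h2 (le_trans (cle hbpos (by omega)) h3)
        (h4.trans (cle hbpos (by omega)))
      cases l
      · exact S.mono (Nat.le_succ _) o
      · simp only [hoff, if_true]
        refine hext t x (z y) i hi o (Or.inl ⟨X y * R + r, ?_, ?_⟩)
        · refine le_trans (le_of_eq ?_) h3
          rw [hρdef]; push_cast; ring
        · refine h4.trans (le_of_eq ?_)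
          rw [hρdef]; push_cast; ring
    set φ : ι × Fin (R + 1) × Fin N × Bool → ℕ → H := fun L m =>
      S.G (m * h) (((X L.1 * ρ + L.2.1 * (2 * N) + 2 * L.2.2.1 : ℕ) : ℝ) * b)
        (off L.1 L.2.2.1 L.2.2.2) - (m : ℝ) • V with hφ
    have hTle : (T0 : ℝ) * h ≤ ((T0 + R' * U : ℕ) : ℝ) * h := by gcongr; omega
    have hsel := select φ V T0 U R' hR'pos (24 * S.M * ρ * (ρ * (S.q * a)))
      (η * h ^ 2) (a / 16) (by positivity) ?_ ?_ ?_
    rotate_left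
    · rintro ⟨y, r, i, l⟩
      simp only [hφ]
      have hp := hposle r (Nat.lt_succ_iff.mp r.2) i i.2
      have hx : ((X y * ρ + r * (2 * N) + 2 * i : ℕ) : ℝ) * b ≤
          ((X y * ρ + r * (2 * N) + 2 * i + 1 : ℕ) : ℝ) * b := cle hbpos (by omega)
      have hx0 : (X y : ℝ) * (ρ * b) ≤ ((X y + 2 : ℕ) : ℝ) * (ρ * b) := by gcongr; omega
      have := S.ref_move (hroom y _ _ le_rfl hTle le_rfl hx0) (hroom y _ _ hTle le_rfl le_rfl hx0)
        (hline y r (Nat.lt_succ_iff.mp r.2) i i.2 l _ _ le_rfl hTle le_rfl hx)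
        (hline y r (Nat.lt_succ_iff.mp r.2) i i.2 l _ _ hTle le_rfl le_rfl hx) (href y)
        (C := 6 * (ρ * b)) (by
          have e : ((X y * ρ + r * (2 * N) + 2 * i : ℕ) : ℝ) * b - (X y : ℝ) * (ρ * b) =
              ((r * (2 * N) + 2 * i : ℕ) : ℝ) * b := by push_cast; ring
          rw [e, abs_of_nonneg (by positivity)]
          have e1 : ((r * (2 * N) + 2 * i : ℕ) : ℝ) * b ≤ ((2 * ρ : ℕ) : ℝ) * b :=
            cle hbpos (by omega)
          have e2 := hoffd y i l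
          push_cast at e1 ⊢
          nlinarith)
      refine this.trans ?_
      rw [← hb]
      have : S.M * (ρ * b) * 1 ≤ S.M * (ρ * b) * ρ := by gcongr
      nlinarith
    · rintro ⟨y, r, i, l⟩ m hm1 hm2
      simp only [hφ]
      have hp := hposle r (Nat.lt_succ_iff.mp r.2) i i.2
      set P : ℕ := X y * ρ + r * (2 * N) + 2 * i with hP
      have hbb : b = ((ρ ^ n * Ω' : ℕ) : ℝ) * bn := by
        rw [hb, ha]; push_cast
        calc (S.q : ℝ) * (ρ ^ n * h) = ρ ^ n * (S.q * h) := by ring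
          _ = _ := by rw [hqh]; ring
      have hPb : (P : ℝ) * b = ((P * (ρ ^ n * Ω') : ℕ) : ℝ) * bn := by
        rw [hbb]; push_cast; ring
      have h2le : 2 ≤ ρ ^ n * Ω' := by
        have : 1 ≤ ρ ^ n := Nat.one_le_pow _ _ hρpos
        nlinarith
      have := NG m (P * (ρ ^ n * Ω')) (off y i l) (by
        intro t x h1 h2 h3 h4
        refine S.mono (by omega) (hline y r (Nat.lt_succ_iff.mp r.2) i i.2 l t x
          (le_trans (cle hh hm1) h1) (h2.trans (cle hh hm2)) (by rw [← hP, hPb]; exact h3)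
          (h4.trans ?_))
        have : ((P + 1 : ℕ) : ℝ) * b = (((P + 1) * (ρ ^ n * Ω') : ℕ) : ℝ) * bn := by
          rw [hbb]; push_cast; ring
        rw [← hP, this]
        exact cle hbn (by nlinarith))
      rw [← hPb] at this
      refine le_trans (le_of_eq ?_) this
      congr 2
      push_cast
      rw [add_smul, one_smul]
      abel
    · refine sel_ineq S.M S.q N ρ (Γ n) K R h a η _ U R' ‖V‖ hM hq hN' hρ'
        (by exact_mod_cast hΓpos n) (by exact_mod_cast hRpos) hh hapos hη0 (by positivity) ?_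
        (by positivity) (by rw [hU, hν, ha]; push_cast; ring) (by rw [hR']; push_cast; ring)
        (norm_nonneg _) hV hK (hη n (by omega))
      have : Fintype.card (ι × Fin (R + 1) × Fin N × Bool) ≤ 4 * ρ ^ 2 := by
        simp only [Fintype.card_prod, Fintype.card_fin, Fintype.card_bool]
        have h1 : (R + 1) * (N * 2) ≤ 2 * ρ := by rw [hρdef]; nlinarith
        calc Fintype.card ι * ((R + 1) * (N * 2)) ≤ (2 * ρ) * (2 * ρ) := Nat.mul_le_mul hι h1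
          _ = _ := by ring
      exact_mod_cast this
    obtain ⟨r0, hr0, hrig⟩ := hsel
    set p := T0 + r0 * U with hpdef
    have hpU : p + U ≤ T0 + R' * U := by
      have : (r0 + 1) * U ≤ R' * U := Nat.mul_le_mul_right _ hr0
      nlinarith
    have hp0 : T0 ≤ p := Nat.le_add_right _ _
    refine ⟨p, hp0, by omega, fun y => ?_⟩
    have htm : ∀ m : ℕ, p ≤ m → m ≤ p + U →
        (T0 : ℝ) * h ≤ m * h ∧ (m : ℝ) * h ≤ ((T0 + R' * U : ℕ) : ℝ) * h := by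
      intro m h1 h2
      constructor <;> gcongr <;> omega
    have hstep := S.edge_step N R0 hN hR0 hp a b h hapos hbpos V (z y) (X y * ρ) p U (d + 1)
      ((4 * S.M ^ 2 - n / (128 * N ^ 3 * S.q ^ 2)) * b ^ 2) ?_ ?_ ?_ ?_ ?_
    · rw [← hR, ← hρdef] at hstep
      have e1 : ((X y + 1 : ℕ) : ℝ) * (ρ * b) = ((X y * ρ + ρ : ℕ) : ℝ) * b := by push_cast; ring
      have e2 : (X y : ℝ) * (ρ * b) = ((X y * ρ : ℕ) : ℝ) * b := by push_cast; ring
      rw [e1, e2, Nat.cast_succ]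
      refine fin_ineq S.M S.q N R0 ρ a n _ hM hq hN' hR0' hapos
        (by rw [hρdef, hR]; push_cast; ring) hρ (hstep.trans (le_of_eq ?_))
      rw [hR]; push_cast; ring
    · intro r hr i hi m h1 h2
      exact hrig (y, ⟨r, Nat.lt_succ_of_le hr⟩, ⟨i, hi⟩, false) m p h1 h2 le_rfl
        (Nat.le_add_right _ _)
    · intro r hr i hi m h1 h2
      exact hrig (y, ⟨r, Nat.lt_succ_of_le hr⟩, ⟨i, hi⟩, true) m p h1 h2 le_rfl
        (Nat.le_add_right _ _)
    · intro m h1 h2 j hj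
      rw [← hR, ← hρdef] at hj
      exact S.mono (Nat.le_succ _) (hroom' y _ _ (htm m h1 h2).1 (htm m h1 h2).2
        (by gcongr; omega) (by gcongr; omega))
    · intro m h1 h2 r hr i hi
      exact hline y r hr.le i hi true _ _ (htm m h1 h2).1 (htm m h1 h2).2 le_rfl
        (cle hbpos (by omega))
    · intro i hi
      set T' : ℕ := 2 * N * (T * R' + r0) + 2 * i with hT'
      have hT'1 : p ≤ T' * ν := by
        rw [hpdef, hT0, hT', hU]; nlinarith [Nat.zero_le (2 * i * ν)]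
      have hT'2 : (T' + 1) * ν ≤ p + U := by
        have : (2 * i + 1) * ν ≤ (2 * N) * ν := Nat.mul_le_mul_right _ (by omega)
        rw [hpdef, hT0, hT', hU]; nlinarith
      have hT'3 : T' * ν ≤ (T' + 1) * ν := Nat.mul_le_mul_right _ (Nat.le_succ _)
      have hchild : ∀ l, ∀ t x : ℝ, ((T' * ν : ℕ) : ℝ) * h ≤ t → t ≤ (((T' + 1) * ν : ℕ) : ℝ) * h →
          ((X y * ρ : ℕ) : ℝ) * b ≤ x → x ≤ ((X y * ρ + 2 * ρ : ℕ) : ℝ) * b →
          S.Ok (d + 1) t x (off y i l) := by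
        intro l t x h1 h2 h3 h4
        have o : S.Ok d t x (z y) := hroom' y t x (le_trans (by gcongr; omega) h1)
          (h2.trans (by gcongr; omega)) h3 h4
        cases l
        · exact S.mono (Nat.le_succ _) o
        · simp only [hoff, if_true]
          refine hext t x (z y) i hi o (Or.inr ⟨T * R' + r0, ?_, ?_⟩)
          · refine le_trans (le_of_eq ?_) h1
            rw [hT']; push_cast; ring
          · refine h2.trans (le_of_eq ?_)
            rw [hT']; push_cast; ring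
      have hTT : ((T' * ν : ℕ) : ℝ) * h ≤ (((T' + 1) * ν : ℕ) : ℝ) * h := by gcongr
      have hih := ih' (Bool × Fin ρ) (by simp) (fun c => off y i c.1)
        (fun c => X y * ρ + c.2) T' ?_ ?_
      · obtain ⟨m, hm1, hm2, hm3⟩ := hih
        refine ⟨m, by omega, by omega, fun j hj => ?_, fun j hj => ?_⟩
        · rw [← hR, ← hρdef] at hj
          exact hchild true _ _ (by gcongr) (by gcongr) (by gcongr; omega) (by gcongr; omega)
        · rw [← hR, ← hρdef] at hj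
          exact ⟨hm3 (false, ⟨j, hj⟩), hm3 (true, ⟨j, hj⟩)⟩
      · rintro ⟨l, j⟩ t x h1 h2 h3 h4
        have := j.2
        exact hchild l t x h1 h2 (le_trans (cle hbpos (by simp)) h3)
          (h4.trans (cle hbpos (by simp only; omega)))
      · rintro ⟨l, j⟩
        have hj := j.2
        have r1 := hrig (y, ⟨0, Nat.succ_pos _⟩, ⟨0, hN⟩, false) ((T' + 1) * ν) (T' * ν)
          (by omega) (by omega) (by omega) (by omega)
        simp only [hφ, hoff, zero_mul, mul_zero, add_zero, Bool.false_eq_true, if_false] at r1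
        have hx0 : ((X y * ρ : ℕ) : ℝ) * b ≤ ((X y * ρ + 2 * ρ : ℕ) : ℝ) * b := by gcongr; omega
        have hx1 : ((X y * ρ : ℕ) : ℝ) * b ≤ ((X y * ρ + j : ℕ) : ℝ) * b := by gcongr; omega
        have hx2 : ((X y * ρ + j : ℕ) : ℝ) * b ≤ ((X y * ρ + 2 * ρ : ℕ) : ℝ) * b := by
          gcongr; omega
        have c0 := hchild false _ _ le_rfl hTT le_rfl hx0
        have c1 := hchild false _ _ hTT le_rfl le_rfl hx0
        simp only [hoff, Bool.false_eq_true, if_false] at c0 c1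
        have := S.ref_move c0 c1 (hchild l _ _ le_rfl hTT hx1 hx2) (hchild l _ _ hTT le_rfl hx1 hx2)
          r1 (C := 4 * (ρ * b)) (by
            have e : ((X y * ρ + j : ℕ) : ℝ) * b - ((X y * ρ : ℕ) : ℝ) * b = (j : ℝ) * b := by
              push_cast; ring
            rw [e, abs_of_nonneg (by positivity)]
            have e1 : ((j : ℕ) : ℝ) * b ≤ (ρ : ℝ) * b := cle hbpos hj.le
            have e2 := hoffd y i l
            nlinarith)
        refine this.trans ?_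
        have : 1 * 1 * b ≤ S.M * ρ * b := by gcongr
        nlinarith

end Crest.Agent.R254
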