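import Crest.Agent.R254.Outer
import Crest.Agent.R254.Geom

/-! A universal scheme of parameters and the non-embedding theorem for row 254. -/

set_option autoImplicit false
set_option linter.unusedSectionVars false

namespace Crest.Agent.R254

open Finset

/-- Parameters that defeat all targets with packing number and distortion at most `N`. -/
structure Params (N : ℕ) where
  R0 : ℕ
  ρ : ℕ
  K : ℕ
  k : ℕ
  Kt : ℕ
  Γ : ℕ → ℕ
  R0_pos : 0 < R0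
  ρ_eq : ρ = N * R0 * (2 * N)
  Γ_zero : Γ 0 = 2000
  Γ_succ : ∀ n, Γ (n + 1) = K * Γ n ^ 2
  ρ_ge : 1152 * N ^ 2 * N ^ 3 * 2000 ≤ ρ
  K_ge : 393216 * ρ ^ 4 * N ^ 2 * 2000 * N ≤ K
  k_gt : 4 * N ^ 2 * (128 * N ^ 3 * 2000 ^ 2) < k
  Kt_gt : 4 * N ^ 2 * (8192 * ρ ^ 2 * N ^ 2 * Γ k ^ 2) < Kt

lemma exists_params (N : ℕ) (hN : 0 < N) : Nonempty (Params N) := by
  obtain ⟨R0, hR0⟩ : ∃ R0, R0 = 576 * N ^ 3 * 2000 := ⟨_, rfl⟩
  obtain ⟨ρ, hρ⟩ : ∃ ρ, ρ = N * R0 * (2 * N) := ⟨_, rfl⟩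
  obtain ⟨K, hK⟩ : ∃ K, K = 393216 * ρ ^ 4 * N ^ 2 * 2000 * N := ⟨_, rfl⟩
  obtain ⟨k, hk⟩ : ∃ k, k = 4 * N ^ 2 * (128 * N ^ 3 * 2000 ^ 2) + 1 := ⟨_, rfl⟩
  obtain ⟨Γ, h0, h1⟩ : ∃ Γ : ℕ → ℕ, Γ 0 = 2000 ∧ ∀ n, Γ (n + 1) = K * Γ n ^ 2 :=
    ⟨fun n => Nat.rec 2000 (fun _ g => K * g ^ 2) n, rfl, fun _ => rfl⟩
  exact ⟨⟨R0, ρ, K, k, _, Γ, by rw [hR0]; positivity, hρ, h0, h1,
    by rw [hρ, hR0]; exact le_of_eq (by ring), hK.ge, by rw [hk]; exact Nat.lt_succ_self _,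
    Nat.lt_succ_self _⟩⟩

namespace Params

variable {N : ℕ} (Q : Params N) (hN : 0 < N)
include hN

lemma ρ_ge' : 2000 ≤ Q.ρ := by
  refine le_trans ?_ Q.ρ_ge
  have : 1 ≤ N ^ 2 * N ^ 3 := Nat.succ_le_of_lt (by positivity)
  nlinarith

lemma K_ge' : 2 ≤ Q.K := by
  refine le_trans ?_ Q.K_ge
  have h := Q.ρ_ge' hN
  have : 1 ≤ Q.ρ ^ 4 * N ^ 2 * N := Nat.succ_le_of_lt (by have : 0 < Q.ρ := by omega
                                                          positivity)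
  nlinarith

lemma Γ_ge (n : ℕ) : 2000 ≤ Q.Γ n := by
  induction n with
  | zero => exact Q.Γ_zero.ge
  | succ n ih =>
    rw [Q.Γ_succ]
    have := Q.K_ge' hN
    nlinarith

lemma Γ_ge' : 4000 ≤ Q.Γ Q.k := by
  obtain ⟨n, hn⟩ : ∃ n, Q.k = n + 1 := ⟨Q.k - 1, by have := Q.k_gt; omega⟩
  rw [hn, Q.Γ_succ]
  have := Q.K_ge' hN
  have := Q.Γ_ge hN n
  nlinarith

end Params

lemma exists_concat {α : Type*} (x₀ : α) (n : ℕ → ℕ) (pat : ℕ → ℕ → α) :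
    ∃ (g : ℕ → α) (E : ℕ → ℕ), ∀ j, ∀ m < n j, g (E j + m) = pat j m := by
  classical
  set E : ℕ → ℕ := fun j => ∑ i ∈ range j, n i with hE
  have hEs : ∀ j, E (j + 1) = E j + n j := fun j => sum_range_succ _ _
  have hmono : Monotone E := monotone_nat_of_le_succ fun j => by rw [hEs]; omega
  set φ : (Σ j, Fin (n j)) → ℕ := fun p => E p.1 + p.2 with hφ
  have hinj : Function.Injective φ := by
    rintro ⟨j, m⟩ ⟨j', m'⟩ h
    simp only [hφ] at h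
    have hm := m.2
    have hm' := m'.2
    obtain rfl : j = j' := by
      rcases lt_trichotomy j j' with h1 | h1 | h1
      · have := hmono (Nat.succ_le_of_lt h1)
        rw [hEs] at this; omega
      · exact h1
      · have := hmono (Nat.succ_le_of_lt h1)
        rw [hEs] at this; omega
    obtain rfl : m = m' := Fin.ext (by omega)
    rfl
  refine ⟨Function.extend φ (fun p => pat p.1 p.2) (fun _ => x₀), E, fun j m hm => ?_⟩
  exact hinj.extend_apply (fun p => pat p.1 p.2) (fun _ => x₀) ⟨j, ⟨m, hm⟩⟩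

lemma exists_scheme : ∃ P : Scheme, ∀ N, 0 < N → ∃ (Q : Params N) (E : ℕ),
    ∀ m < (Q.Kt + 1) * Q.k, P.ratio (E + m) = (if m % Q.k = 0 then Q.Γ Q.k * Q.ρ else Q.ρ) ∧
      P.Γ (E + m) = Q.Γ (Q.k - 1 - m % Q.k) ∧ P.N (E + m) = N := by
  have Q : ∀ j, Params (j + 1) := fun j => Classical.choice (exists_params (j + 1) j.succ_pos)
  obtain ⟨g, E, h⟩ := exists_concat (α := {x : ℕ × ℕ × ℕ // 2000 ≤ x.1 ∧ 2000 ≤ x.2.1})
    ⟨(2000, 2000, 0), le_rfl, le_rfl⟩ (fun j => ((Q j).Kt + 1) * (Q j).k)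
    (fun j m => ⟨(if m % (Q j).k = 0 then (Q j).Γ (Q j).k * (Q j).ρ else (Q j).ρ,
      (Q j).Γ ((Q j).k - 1 - m % (Q j).k), j + 1), by
        have h1 := (Q j).ρ_ge' j.succ_pos
        have h2 := (Q j).Γ_ge j.succ_pos (Q j).k
        split_ifs
        · simp only; nlinarith
        · exact h1, (Q j).Γ_ge j.succ_pos _⟩)
  refine ⟨⟨fun e => (g e).1.1, fun e => (g e).1.2.1, fun e => (g e).1.2.2, fun e => (g e).2.1,
    fun e => (g e).2.2⟩, fun N hN => ?_⟩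
  obtain ⟨j, rfl⟩ : ∃ j, N = j + 1 := ⟨N - 1, by omega⟩
  refine ⟨Q j, E j, fun m hm => ?_⟩
  simp only [h j m hm, and_self]

variable {B H : Type*} [NormedAddCommGroup B] [NormedSpace ℝ B]
  [NormedAddCommGroup H] [InnerProductSpace ℝ H]

lemma exists_pack [FiniteDimensional ℝ H] (M : ℝ) : ∃ N₀, ∀ N, N₀ ≤ N → Pack H N M := by
  classical
  have := FiniteDimensional.proper_real H
  obtain ⟨t, ht, hcov⟩ := Metric.totallyBounded_iff.mp
    (isCompact_closedBall (0 : H) (2 * M)).totallyBounded (1 / 8) (by norm_num)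
  refine ⟨ht.toFinset.card + 1, fun N hN v hv => ?_⟩
  have hch : ∀ i, ∃ c, i < N → c ∈ t ∧ ‖v i - c‖ < 1 / 8 := by
    intro i
    by_cases hi : i < N
    · have := hcov (show v i ∈ Metric.closedBall (0 : H) (2 * M) by simpa using hv i hi)
      simp only [Set.mem_iUnion, Metric.mem_ball, dist_eq_norm] at this
      obtain ⟨c, hc, hc'⟩ := this
      exact ⟨c, fun _ => ⟨hc, hc'⟩⟩
    · exact ⟨0, fun h => absurd h hi⟩
  choose c hc using hch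
  obtain ⟨i, hi, j, hj, hij, hcij⟩ := exists_ne_map_eq_of_card_lt_of_maps_to
    (s := range N) (t := ht.toFinset) (f := c) (by simp only [card_range]; omega)
    (fun i hi => by simpa using (hc i (by simpa using hi)).1)
  have hi' := mem_range.mp hi
  have hj' := mem_range.mp hj
  refine ⟨i, hi', j, hj', hij, ?_⟩
  have h1 := (hc i hi').2
  have h2 := (hc j hj').2
  rw [hcij] at h1
  have e : v i - v j = (v i - c j) - (v j - c j) := by abel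
  rw [e]
  linarith [norm_sub_le (v i - c j) (v j - c j)]

theorem no_embedding (P : Scheme) (hP : ∀ N, 0 < N → ∃ (Q : Params N) (E : ℕ),
    ∀ m < (Q.Kt + 1) * Q.k, P.ratio (E + m) = (if m % Q.k = 0 then Q.Γ Q.k * Q.ρ else Q.ρ) ∧
      P.Γ (E + m) = Q.Γ (Q.k - 1 - m % Q.k) ∧ P.N (E + m) = N)
    (F : Frame B) [FiniteDimensional ℝ H] (Φ : B → H) (M : ℝ) (hM : 1 ≤ M)
    (hup : ∀ p ∈ P.carrier F, ∀ p' ∈ P.carrier F, ‖Φ p - Φ p'‖ ≤ M * ‖p - p'‖)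
    (hlow : ∀ p ∈ P.carrier F, ∀ p' ∈ P.carrier F, ‖p - p'‖ ≤ ‖Φ p - Φ p'‖) : False := by
  obtain ⟨N₀, hN₀⟩ := exists_pack (H := H) M
  obtain ⟨N₁, hN₁⟩ := exists_nat_ge M
  set N := max N₀ N₁ with hNdef
  have hMN : M ≤ N := hN₁.trans (by exact_mod_cast le_max_right _ _)
  have hN : 0 < N := by
    have : (0 : ℝ) < N := by linarith
    exact_mod_cast this
  obtain ⟨Q, E, hQ⟩ := hP N hN
  let S : Setup B H :=
    { Ok := fun d t x z => 0 ≤ t ∧ t ≤ 1 ∧ 0 ≤ x ∧ x ≤ 1 ∧ P.Off F d t x z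
      G := fun t x z => Φ (t • F.e0 + x • F.e1 + z)
      w := F.w
      M := M
      q := 2000
      one_le_M := hM
      one_le_q := by norm_num
      mono := fun hd ⟨h1, h2, h3, h4, h5⟩ => ⟨h1, h2, h3, h4, h5.mono hd⟩
      up := by
        rintro d d' t x z t' x' z' ⟨h1, h2, h3, h4, h5⟩ ⟨g1, g2, g3, g4, g5⟩
        refine (hup _ ⟨d, t, x, z, h1, h2, h3, h4, h5, rfl⟩ _
          ⟨d', t', x', z', g1, g2, g3, g4, g5, rfl⟩).trans ?_
        refine mul_le_mul_of_nonneg_left ?_ (by linarith)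
        have e : t • F.e0 + x • F.e1 + z - (t' • F.e0 + x' • F.e1 + z') =
            ((t - t') • F.e0 + (x - x') • F.e1) + (z - z') := by
          simp only [sub_smul]; abel
        rw [e]
        exact norm_add_le_of_le (F.norm_plane_le _ _) le_rfl
      low := by
        rintro d d' t x z z' ⟨h1, h2, h3, h4, h5⟩ ⟨g1, g2, g3, g4, g5⟩
        refine le_trans (le_of_eq ?_) (hlow _ ⟨d, t, x, z, h1, h2, h3, h4, h5, rfl⟩ _
          ⟨d', t, x, z', g1, g2, g3, g4, g5, rfl⟩)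
        rw [add_sub_add_left_eq_sub]
      w_le := F.w_le
      w_sep := fun i j hij => by simpa using F.w_sep i j hij 0 0 }
  have hk : 0 < Q.k := by have := Q.k_gt; omega
  have hρ := Q.ρ_ge' hN
  set hs : ℕ → ℝ := fun κ => P.a (E + κ * Q.k + (Q.k - 1)) with hhs
  have hidx : ∀ κ ≤ Q.Kt, ∀ n < Q.k, ∀ d, d + n + 1 = E + (κ + 1) * Q.k →
      P.ratio d = (if n + 1 = Q.k then Q.Γ Q.k * Q.ρ else Q.ρ) ∧ P.Γ d = Q.Γ n ∧ P.N d = N := by
    intro κ hκ n hn d hd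
    have hd' : d = E + (Q.k * κ + (Q.k - 1 - n)) := by
      rw [Nat.succ_mul, mul_comm] at hd; omega
    have hlt : Q.k * κ + (Q.k - 1 - n) < (Q.Kt + 1) * Q.k := by
      have : Q.k * κ ≤ Q.k * Q.Kt := Nat.mul_le_mul_left _ hκ
      rw [Nat.succ_mul, mul_comm Q.Kt]; omega
    have hmod : (Q.k * κ + (Q.k - 1 - n)) % Q.k = Q.k - 1 - n := by
      rw [Nat.mul_add_mod, Nat.mod_eq_of_lt (by omega)]
    obtain ⟨h1, h2, h3⟩ := hQ _ hlt
    rw [← hd', hmod] at h1 h2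
    rw [← hd'] at h3
    refine ⟨?_, ?_, h3⟩
    · rw [h1]; congr 1; apply propext; omega
    · rw [h2]; congr 1; omega
  have ha : ∀ κ ≤ Q.Kt, ∀ n < Q.k, ∀ d, d + n + 1 = E + (κ + 1) * Q.k →
      P.a d = (Q.ρ : ℝ) ^ n * hs κ := by
    intro κ hκ n
    induction n with
    | zero =>
      intro _ d hd
      rw [pow_zero, one_mul, hhs]
      congr 1
      rw [Nat.succ_mul] at hd; omega
    | succ n ih =>
      intro hn d hd
      rw [P.a_succ d, ih (by omega) (d + 1) (by omega),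
        (hidx κ hκ n (by omega) (d + 1) (by omega)).1, if_neg (by omega)]
      ring
  have hpow : (Q.ρ : ℝ) ^ Q.k = Q.ρ * Q.ρ ^ (Q.k - 1) := by
    conv_lhs => rw [show Q.k = (Q.k - 1) + 1 by omega]
    ring
  have hW : ((Q.Γ Q.k * Q.ρ ^ Q.k : ℕ) : ℝ) * hs 0 ≤ 1 := by
    refine le_trans (le_of_eq ?_) (P.ratio_mul_a_le E)
    rw [ha 0 (Nat.zero_le _) (Q.k - 1) (by omega) E (by omega),
      (hidx 0 (Nat.zero_le _) (Q.k - 1) (by omega) E (by omega)).1, if_pos (by omega)]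
    push_cast
    rw [hpow]; ring
  have hspos : ∀ κ, 0 < hs κ := fun κ => P.a_pos _
  refine S.false_of_plan N Q.R0 Q.ρ Q.K Q.k E Q.Kt Q.Γ hN Q.R0_pos Q.ρ_eq
    (hN₀ N (le_max_left _ _)) Q.Γ_succ (fun n => by have := Q.Γ_ge hN n; omega)
    (by have := Q.Γ_ge hN Q.k; omega) hs hspos ?_ ?_ ?_ ?_ ?_ ?_ ?_
  · intro κ hκ
    have e1 : E + κ * Q.k + (Q.k - 1) + 1 + (Q.k - 1) + 1 = E + (κ + 1 + 1) * Q.k := by
      rw [Nat.succ_mul, Nat.succ_mul]; omega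
    show P.a _ = _
    rw [P.a_succ, ha (κ + 1) hκ (Q.k - 1) (by omega) _ e1,
      (hidx (κ + 1) hκ (Q.k - 1) (by omega) _ e1).1, if_pos (by omega)]
    push_cast
    rw [hpow]; ring
  · rintro κ hκ n hn d hd t x z i hi ⟨h1, h2, h3, h4, h5⟩ hc
    obtain ⟨-, g2, g3⟩ := hidx κ hκ.le n hn d hd
    have g4 := ha κ hκ.le n hn d hd
    refine ⟨h1, h2, h3, h4, z, F.w i, h5, Or.inr ⟨i, by rw [g3]; exact hi, ?_, rfl⟩, by rw [g4]⟩
    rw [g2, g3, g4]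
    rcases hc with hc | hc
    · left; exact_mod_cast hc
    · right
      have : ((Q.Γ n * Q.ρ ^ n : ℕ) : ℝ) * hs κ = Q.Γ n * ((Q.ρ : ℝ) ^ n * hs κ) := by
        push_cast; ring
      rwa [this] at hc
  · have : ((1152 * N ^ 2 * N ^ 3 * 2000 : ℕ) : ℝ) ≤ Q.ρ := by exact_mod_cast Q.ρ_ge
    refine le_trans ?_ this
    show 1152 * M ^ 2 * (N : ℝ) ^ 3 * ((2000 : ℕ) : ℝ) ≤ _
    push_cast; gcongr
  · have : ((393216 * Q.ρ ^ 4 * N ^ 2 * 2000 * N : ℕ) : ℝ) ≤ Q.K := by exact_mod_cast Q.K_ge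
    refine le_trans ?_ this
    show 393216 * (Q.ρ : ℝ) ^ 4 * M ^ 2 * ((2000 : ℕ) : ℝ) * N ≤ _
    push_cast; gcongr
  · have : ((4 * N ^ 2 * (128 * N ^ 3 * 2000 ^ 2) : ℕ) : ℝ) < Q.k := by exact_mod_cast Q.k_gt
    refine lt_of_le_of_lt ?_ this
    show 4 * M ^ 2 * (128 * (N : ℝ) ^ 3 * ((2000 : ℕ) : ℝ) ^ 2) ≤ _
    push_cast; gcongr; norm_num
  · have : ((4 * N ^ 2 * (8192 * Q.ρ ^ 2 * N ^ 2 * Q.Γ Q.k ^ 2) : ℕ) : ℝ) < Q.Kt := by
      exact_mod_cast Q.Kt_gt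
    refine lt_of_le_of_lt ?_ this
    show 4 * M ^ 2 * _ ≤ _
    push_cast; gcongr
  · intro t x h1 h2 h3 h4
    refine ⟨h1, h2.trans hW, h3, h4.trans (le_trans ?_ hW), Scheme.Off.mono (Nat.zero_le _) rfl⟩
    have : (4000 : ℝ) ≤ Q.Γ Q.k := by exact_mod_cast Q.Γ_ge' hN
    have h0 := hspos 0
    have h5 : 0 ≤ (Q.ρ : ℝ) ^ Q.k * hs 0 := by positivity
    show 2 * (((2000 : ℕ) : ℝ) * _) ≤ _
    push_cast
    nlinarith

end Crest.Agent.R254
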