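import Crest.Agent.R254.Inner

/-! The outer (time) loop of the non-embedding argument for row 254. -/

set_option autoImplicit false
set_option linter.unusedSectionVars false

namespace Crest.Agent.R254

open Finset

variable {B H : Type*} [NormedAddCommGroup B] [NormedSpace ℝ B]
  [NormedAddCommGroup H] [InnerProductSpace ℝ H]

lemma Setup.outer (S : Setup B H) (N R0 ρ K k E Kt : ℕ) (Γ : ℕ → ℕ) (hN : 0 < N) (hR0 : 0 < R0)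
    (hρdef : ρ = N * R0 * (2 * N)) (hp : Pack H N S.M)
    (hΓ : ∀ n, Γ (n + 1) = K * Γ n ^ 2) (hΓpos : ∀ n, 0 < Γ n) (hΓk : 2 ≤ Γ k)
    (η : ℝ) (hη0 : 0 ≤ η) (hs : ℕ → ℝ) (hspos : ∀ κ, 0 < hs κ)
    (hsrec : ∀ κ, κ < Kt → hs κ = ((Γ k * ρ ^ k : ℕ) : ℝ) * hs (κ + 1))
    (plan : ∀ κ < Kt, ∀ n < k, ∀ d, d + n + 1 = E + (κ + 1) * k →
      S.Ext d N ((ρ : ℝ) ^ n * hs κ) (((Γ n * ρ ^ n : ℕ) : ℝ) * hs κ))
    (hρ : 1152 * S.M ^ 2 * N ^ 3 * S.q ≤ ρ) (hK : 393216 * ρ ^ 4 * S.M ^ 2 * S.q * N ≤ K)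
    (hη : ∀ n < k, 8192 * (ρ : ℝ) ^ 2 * N ^ 2 * (Γ n : ℝ) ^ 2 * η ≤ 1)
    (hk : 4 * S.M ^ 2 * (128 * N ^ 3 * S.q ^ 2) < k) :
    ∀ j κ, κ + j = Kt → ∀ (m X : ℕ) (z : B),
      S.Room (E + κ * k) (m * (((Γ k * ρ ^ k : ℕ) : ℝ) * hs κ))
        (((m + 1 : ℕ) : ℝ) * (((Γ k * ρ ^ k : ℕ) : ℝ) * hs κ)) (X * (S.q * ((ρ : ℝ) ^ k * hs κ)))
        (((X + 2 : ℕ) : ℝ) * (S.q * ((ρ : ℝ) ^ k * hs κ))) z →
      ‖S.G (((m + 1 : ℕ) : ℝ) * (((Γ k * ρ ^ k : ℕ) : ℝ) * hs κ)) (X * (S.q * ((ρ : ℝ) ^ k * hs κ))) z -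
        S.G (m * (((Γ k * ρ ^ k : ℕ) : ℝ) * hs κ)) (X * (S.q * ((ρ : ℝ) ^ k * hs κ))) z‖ ^ 2 ≤
        (4 * S.M ^ 2 - j * η) * (((Γ k * ρ ^ k : ℕ) : ℝ) * hs κ) ^ 2 := by
  have hM := S.one_le_M
  have hq : (1 : ℝ) ≤ S.q := by exact_mod_cast S.one_le_q
  have hN' : (1 : ℝ) ≤ N := by exact_mod_cast hN
  have hρpos : 0 < ρ := by rw [hρdef]; positivity
  have hρ' : (1 : ℝ) ≤ ρ := by exact_mod_cast hρpos
  set Ω : ℕ := Γ k * ρ ^ k with hΩ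
  have hΩpos : 0 < Ω := by have := hΓpos k; positivity
  have hΩ' : (0 : ℝ) < Ω := by exact_mod_cast hΩpos
  have triv : ∀ κ (m X : ℕ) (z : B),
      S.Room (E + κ * k) (m * ((Ω : ℝ) * hs κ))
        (((m + 1 : ℕ) : ℝ) * ((Ω : ℝ) * hs κ)) (X * (S.q * ((ρ : ℝ) ^ k * hs κ)))
        (((X + 2 : ℕ) : ℝ) * (S.q * ((ρ : ℝ) ^ k * hs κ))) z →
      ‖S.G (((m + 1 : ℕ) : ℝ) * ((Ω : ℝ) * hs κ)) (X * (S.q * ((ρ : ℝ) ^ k * hs κ))) z -
        S.G (m * ((Ω : ℝ) * hs κ)) (X * (S.q * ((ρ : ℝ) ^ k * hs κ))) z‖ ≤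
        2 * S.M * ((Ω : ℝ) * hs κ) := by
    intro κ m X z hroom
    have h0 := hspos κ
    have hW : 0 < (Ω : ℝ) * hs κ := by positivity
    have hβ : 0 < S.q * ((ρ : ℝ) ^ k * hs κ) := by positivity
    have o1 := hroom _ _ (cle hW (Nat.le_succ m)) le_rfl le_rfl (cle hβ (Nat.le_add_right X 2))
    have o0 := hroom _ _ le_rfl (cle hW (Nat.le_succ m)) le_rfl (cle hβ (Nat.le_add_right X 2))
    have := S.up o1 o0
    have e : ((m + 1 : ℕ) : ℝ) * ((Ω : ℝ) * hs κ) - m * ((Ω : ℝ) * hs κ) = (Ω : ℝ) * hs κ := by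
      push_cast; ring
    rw [e, abs_of_pos hW] at this
    simp only [sub_self, abs_zero, norm_zero, mul_zero, add_zero] at this
    linarith
  intro j
  induction j with
  | zero =>
    intro κ _ m X z hroom
    have := pow_le_pow_left₀ (norm_nonneg _) (triv κ m X z hroom) 2
    simp only [Nat.cast_zero, zero_mul, sub_zero]
    nlinarith
  | succ j ih =>
    intro κ hκ m X z hroom
    by_contra hcon
    push Not at hcon
    have ih' := ih (κ + 1) (by omega)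
    have hrec := hsrec κ (by omega)
    rw [← hrec] at ih'
    set h := hs κ with hh
    have hpos : 0 < h := hspos κ
    set β := S.q * ((ρ : ℝ) ^ k * h) with hβ
    set Δ := S.G (((m + 1 : ℕ) : ℝ) * ((Ω : ℝ) * h)) (X * β) z - S.G (m * ((Ω : ℝ) * h)) (X * β) z
      with hΔ
    have hΔle : ‖Δ‖ ≤ 2 * S.M * ((Ω : ℝ) * h) := triv κ m X z hroom
    set V : H := (Ω : ℝ)⁻¹ • Δ with hV
    have hΔV : Δ = (Ω : ℝ) • V := by rw [hV, smul_inv_smul₀ hΩ'.ne']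
    have hnorm : ‖Δ‖ = Ω * ‖V‖ := by
      conv_lhs => rw [hΔV]
      rw [norm_smul, Real.norm_of_nonneg hΩ'.le]
    have hVle : ‖V‖ ≤ 2 * S.M * h := by
      rw [hnorm] at hΔle
      have : (Ω : ℝ) * ‖V‖ ≤ Ω * (2 * S.M * h) := by linarith
      exact le_of_mul_le_mul_left this hΩ'
    have hVge : (4 * S.M ^ 2 - j * η) * h ^ 2 ≤ ‖V‖ ^ 2 + η * h ^ 2 := by
      rw [hnorm] at hcon
      push_cast at hcon
      have : (Ω : ℝ) ^ 2 * ((4 * S.M ^ 2 - j * η) * h ^ 2) ≤ (Ω : ℝ) ^ 2 * (‖V‖ ^ 2 + η * h ^ 2) := by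
        nlinarith
      exact le_of_mul_le_mul_left this (by positivity)
    have h1pos := hspos (κ + 1)
    obtain ⟨m1, -, -, hfin⟩ := S.inner N R0 ρ K k (E + (κ + 1) * k) (Γ k) Γ hN hR0 hρdef hp hΓ hΓpos
      h (S.q * ((ρ : ℝ) ^ k * hs (κ + 1))) η hpos (by positivity) hΓk
      (by rw [hrec, hΩ]; push_cast; ring) hη0 V hVle
      (fun m' X' z' hr => (ih' m' X' z' hr).trans hVge) (plan κ (by omega)) hρ hK hη k le_rfl
      (E + κ * k) (by ring) Unit (by simp; omega) (fun _ => z) (fun _ => X) m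
      (fun _ => by
        have e1 : ((m * (Γ k * ρ ^ k) : ℕ) : ℝ) * h = m * ((Ω : ℝ) * h) := by
          rw [hΩ]; push_cast; ring
        have e2 : (((m + 1) * (Γ k * ρ ^ k) : ℕ) : ℝ) * h = ((m + 1 : ℕ) : ℝ) * ((Ω : ℝ) * h) := by
          rw [hΩ]; push_cast; ring
        rw [e1, e2]; exact hroom)
      (fun _ => by
        have e1 : ((m * (Γ k * ρ ^ k) : ℕ) : ℝ) * h = m * ((Ω : ℝ) * h) := by
          rw [hΩ]; push_cast; ring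
        have e2 : (((m + 1) * (Γ k * ρ ^ k) : ℕ) : ℝ) * h = ((m + 1 : ℕ) : ℝ) * ((Ω : ℝ) * h) := by
          rw [hΩ]; push_cast; ring
        rw [e1, e2, ← hβ]
        have e3 : S.G (((m + 1 : ℕ) : ℝ) * ((Ω : ℝ) * h)) (X * β) z -
            (((m + 1) * (Γ k * ρ ^ k) : ℕ) : ℝ) • V - (S.G (m * ((Ω : ℝ) * h)) (X * β) z -
            ((m * (Γ k * ρ ^ k) : ℕ) : ℝ) • V) = Δ - (Ω : ℝ) • V := by
          rw [hΔ, ← hΩ, Nat.add_mul, one_mul, Nat.cast_add (m * Ω), add_smul]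
          abel
        rw [e3, ← hΔV, sub_self, norm_zero]
        positivity)
    have h2 := hfin ()
    have h3 : 4 * S.M ^ 2 - (k : ℝ) / (128 * N ^ 3 * S.q ^ 2) < 0 := by
      rw [sub_neg, lt_div_iff₀ (by positivity)]
      exact hk
    have h4 : 0 < (S.q * ((ρ : ℝ) ^ k * h)) ^ 2 := by positivity
    have h5 := mul_neg_of_neg_of_pos h3 h4
    exact absurd (h2.trans_lt h5) (not_lt.mpr (sq_nonneg _))

/-- Final form of the abstract argument. -/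
lemma Setup.false_of_plan (S : Setup B H) (N R0 ρ K k E Kt : ℕ) (Γ : ℕ → ℕ) (hN : 0 < N)
    (hR0 : 0 < R0) (hρdef : ρ = N * R0 * (2 * N)) (hp : Pack H N S.M)
    (hΓ : ∀ n, Γ (n + 1) = K * Γ n ^ 2) (hΓpos : ∀ n, 0 < Γ n) (hΓk : 2 ≤ Γ k)
    (hs : ℕ → ℝ) (hspos : ∀ κ, 0 < hs κ)
    (hsrec : ∀ κ, κ < Kt → hs κ = ((Γ k * ρ ^ k : ℕ) : ℝ) * hs (κ + 1))
    (plan : ∀ κ < Kt, ∀ n < k, ∀ d, d + n + 1 = E + (κ + 1) * k →
      S.Ext d N ((ρ : ℝ) ^ n * hs κ) (((Γ n * ρ ^ n : ℕ) : ℝ) * hs κ))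
    (hρ : 1152 * S.M ^ 2 * N ^ 3 * S.q ≤ ρ) (hK : 393216 * ρ ^ 4 * S.M ^ 2 * S.q * N ≤ K)
    (hk : 4 * S.M ^ 2 * (128 * N ^ 3 * S.q ^ 2) < k)
    (hKt : 4 * S.M ^ 2 * (8192 * (ρ : ℝ) ^ 2 * N ^ 2 * (Γ k : ℝ) ^ 2) < Kt)
    (hroom : S.Room E 0 (((Γ k * ρ ^ k : ℕ) : ℝ) * hs 0) 0 (2 * (S.q * ((ρ : ℝ) ^ k * hs 0))) 0) :
    False := by
  have hM := S.one_le_M
  have hq : (1 : ℝ) ≤ S.q := by exact_mod_cast S.one_le_q
  have hN' : (1 : ℝ) ≤ N := by exact_mod_cast hN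
  have hρpos : 0 < ρ := by rw [hρdef]; positivity
  have hρ' : (1 : ℝ) ≤ ρ := by exact_mod_cast hρpos
  have hKpos : 0 < K := by
    have : (0 : ℝ) < K := lt_of_lt_of_le (by positivity) hK
    exact_mod_cast this
  have hmono : Monotone Γ := monotone_nat_of_le_succ fun n => by
    rw [hΓ]; have := hΓpos n; nlinarith
  have hΓk' : (0 : ℝ) < Γ k := by exact_mod_cast hΓpos k
  set D : ℝ := 8192 * (ρ : ℝ) ^ 2 * N ^ 2 * (Γ k : ℝ) ^ 2 with hD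
  have hDpos : 0 < D := by positivity
  have := S.outer N R0 ρ K k E Kt Γ hN hR0 hρdef hp hΓ hΓpos hΓk D⁻¹ (by positivity) hs hspos hsrec
    plan hρ hK (fun n hn => by
      rw [← div_eq_mul_inv, div_le_one hDpos, hD]
      have : (Γ n : ℝ) ≤ Γ k := by exact_mod_cast hmono hn.le
      gcongr) hk Kt 0 (zero_add _) 0 0 0 (by simpa using hroom)
  have h3 : 4 * S.M ^ 2 - (Kt : ℝ) * D⁻¹ < 0 := by
    rw [sub_neg, ← div_eq_mul_inv, lt_div_iff₀ hDpos]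
    exact hKt
  have h0 := hspos 0
  have h4 : 0 < (((Γ k * ρ ^ k : ℕ) : ℝ) * hs 0) ^ 2 := by push_cast; positivity
  have h5 := mul_neg_of_neg_of_pos h3 h4
  exact absurd (this.trans_lt h5) (not_lt.mpr (sq_nonneg _))

end Crest.Agent.R254
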